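import Mathlib

/-!
P207, all dimensions, row (I4): a map which respects all relations
`sum c_i y_i (x) y_i = 0` up to `C t ^ s`, `s > 2`, is a quadratic form up to `C' |y| ^ s`.
Mathlib only.
-/

namespace Vale.Agent.P207.H717.Quad

open Filter Topology

variable {E F : Type*} [NormedAddCommGroup E] [NormedSpace ℝ E]
  [NormedAddCommGroup F] [NormedSpace ℝ F]

/-- all relations `sum c_i y_i (x) y_i = 0` with `sum |c_i| <= 1`, `|y_i| <= t <= r` are
respected by `M` up to `C t ^ s`. -/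
def Rel (M : E → F) (C r s : ℝ) : Prop :=
  ∀ t : ℝ, 0 < t → t ≤ r → ∀ (N : ℕ) (c : Fin N → ℝ) (y : Fin N → E),
    (∑ i, |c i|) ≤ 1 → (∀ i, ‖y i‖ ≤ t) →
    (∀ f g : E →L[ℝ] ℝ, ∑ i, c i * (f (y i) * g (y i)) = 0) →
    ‖∑ i, c i • M (y i)‖ ≤ C * t ^ s

theorem Rel.fintype {M : E → F} {C r s : ℝ} (h : Rel M C r s) {ι : Type*} [Fintype ι]
    {t : ℝ} (ht : 0 < t) (htr : t ≤ r) (c : ι → ℝ) (y : ι → E)
    (hc : (∑ i, |c i|) ≤ 1) (hy : ∀ i, ‖y i‖ ≤ t)
    (hrel : ∀ f g : E →L[ℝ] ℝ, ∑ i, c i * (f (y i) * g (y i)) = 0) :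
    ‖∑ i, c i • M (y i)‖ ≤ C * t ^ s := by
  classical
  let e := (Fintype.equivFin ι).symm
  have h1 := h t ht htr (Fintype.card ι) (fun i => c (e i)) (fun i => y (e i))
    (by rw [Equiv.sum_comp e (fun i => |c i|)]; exact hc) (fun i => hy _)
    (fun f g => by rw [Equiv.sum_comp e (fun i => c i * (f (y i) * g (y i)))]; exact hrel f g)
  rwa [Equiv.sum_comp e (fun i => c i • M (y i))] at h1

theorem Rel.zero {M : E → F} {C r s : ℝ} (h : Rel M C r s) (hr : 0 < r) (hs : 2 < s) :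
    M 0 = 0 := by
  have h1 : ∀ t : ℝ, 0 < t → t ≤ r → ‖M 0‖ ≤ C * t ^ s := by
    intro t ht htr
    have := h t ht htr 1 (fun _ => 1) (fun _ => 0) (by simp) (by simp [ht.le]) (by simp)
    simpa using this
  have h2 : Tendsto (fun t : ℝ => C * t ^ s) (𝓝[>] 0) (𝓝 (C * 0 ^ s)) := by
    refine Tendsto.mono_left ?_ nhdsWithin_le_nhds
    exact ((Real.continuous_rpow_const (by linarith : (0:ℝ) ≤ s)).tendsto 0).const_mul C
  rw [Real.zero_rpow (by linarith), mul_zero] at h2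
  have h3 : ∀ᶠ t in 𝓝[>] (0:ℝ), ‖M 0‖ ≤ C * t ^ s := by
    filter_upwards [Ioo_mem_nhdsGT hr] with t ht
    exact h1 t ht.1 ht.2.le
  have h4 := ge_of_tendsto h2 h3
  exact norm_le_zero_iff.1 h4

theorem Rel.half {M : E → F} {C r s : ℝ} (h : Rel M C r s) (hr : 0 < r) (hs : 2 < s)
    {y : E} (hy : ‖y‖ ≤ r) : ‖(4:ℝ) • M ((1/2 : ℝ) • y) - M y‖ ≤ 5 * C * ‖y‖ ^ s := by
  rcases eq_or_ne y 0 with rfl | hy0
  · rw [smul_zero, h.zero hr hs, smul_zero, sub_zero, norm_zero, norm_zero,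
      Real.zero_rpow (by linarith), mul_zero]
  have hyp : 0 < ‖y‖ := norm_pos_iff.2 hy0
  have h1 := h ‖y‖ hyp hy 2 ![4/5, -1/5] ![(1/2 : ℝ) • y, y] (by
      rw [Fin.sum_univ_two]
      norm_num [abs_of_pos, abs_of_neg]) (by
      intro i
      fin_cases i
      · simp only [Fin.zero_eta, Matrix.cons_val_zero]
        rw [norm_smul, Real.norm_eq_abs, abs_of_pos (by norm_num : (0:ℝ) < 1/2)]
        linarith
      · simp) (by
      intro f g
      rw [Fin.sum_univ_two]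
      simp only [Matrix.cons_val_zero, Matrix.cons_val_one, map_smul, smul_eq_mul]
      ring)
  rw [Fin.sum_univ_two] at h1
  simp only [Matrix.cons_val_zero, Matrix.cons_val_one] at h1
  have h2 : (4:ℝ) • M ((1/2 : ℝ) • y) - M y
      = (5:ℝ) • ((4/5 : ℝ) • M ((1/2 : ℝ) • y) + (-1/5 : ℝ) • M y) := by
    rw [smul_add, smul_smul, smul_smul]
    norm_num
    rw [sub_eq_add_neg]
  rw [h2, norm_smul, Real.norm_eq_abs, abs_of_pos (by norm_num : (0:ℝ) < 5), mul_assoc]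
  exact mul_le_mul_of_nonneg_left h1 (by norm_num)

/-- the approximations of the quadratic form -/
noncomputable def app (M : E → F) (n : ℕ) (y : E) : F := ((4:ℝ) ^ n) • M (((1/2 : ℝ) ^ n) • y)

theorem app_zero (M : E → F) (y : E) : app M 0 y = M y := by simp [app]

theorem app_add (M : E → F) (n k : ℕ) (y : E) :
    app M (n + k) y = ((4:ℝ) ^ k) • app M n (((1/2 : ℝ) ^ k) • y) := by
  simp only [app, smul_smul, pow_add]
  rw [mul_comm ((4:ℝ) ^ n)]

theorem norm_half_pow (n : ℕ) (y : E) : ‖((1/2 : ℝ) ^ n) • y‖ = (1/2 : ℝ) ^ n * ‖y‖ := by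
  rw [norm_smul, Real.norm_eq_abs, abs_of_nonneg (by positivity)]

theorem norm_half_pow_le (n : ℕ) (y : E) : ‖((1/2 : ℝ) ^ n) • y‖ ≤ ‖y‖ := by
  rw [norm_half_pow]
  exact mul_le_of_le_one_left (norm_nonneg _) (pow_le_one₀ (by norm_num) (by norm_num))

theorem pow_rpow (n : ℕ) {x s : ℝ} (hx : 0 ≤ x) :
    (4:ℝ) ^ n * (((1/2 : ℝ) ^ n * x) ^ s) = x ^ s * ((2:ℝ) ^ (2 - s)) ^ n := by
  rw [Real.mul_rpow (by positivity) hx]
  have h1 : (((1/2 : ℝ) ^ n) ^ s) = ((2:ℝ) ^ (- s)) ^ n := by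
    rw [← Real.rpow_natCast, ← Real.rpow_natCast, ← Real.rpow_mul (by norm_num),
      ← Real.rpow_mul (by norm_num), one_div, Real.inv_rpow (by norm_num),
      ← Real.rpow_neg (by norm_num)]
    congr 1
    ring
  have h2 : (2:ℝ) ^ (2 - s) = 4 * (2:ℝ) ^ (-s) := by
    rw [sub_eq_add_neg, Real.rpow_add (by norm_num)]
    norm_num
  rw [h1, h2, mul_pow]
  ring

theorem q_lt_one {s : ℝ} (hs : 2 < s) : (2:ℝ) ^ (2 - s) < 1 :=
  Real.rpow_lt_one_of_one_lt_of_neg (by norm_num) (by linarith)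

theorem Rel.step {M : E → F} {C r s : ℝ} (h : Rel M C r s) (hr : 0 < r) (hs : 2 < s)
    {y : E} (hy : ‖y‖ ≤ r) (n : ℕ) :
    dist (app M n y) (app M (n + 1) y) ≤ 5 * C * ‖y‖ ^ s * ((2:ℝ) ^ (2 - s)) ^ n := by
  have h1 := h.half hr hs (y := ((1/2 : ℝ) ^ n) • y) ((norm_half_pow_le n y).trans hy)
  rw [dist_comm, dist_eq_norm]
  have h2 : app M (n + 1) y - app M n y
      = ((4:ℝ) ^ n) • ((4:ℝ) • M ((1/2 : ℝ) • (((1/2 : ℝ) ^ n) • y)) - M (((1/2 : ℝ) ^ n) • y)) := by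
    simp only [app, smul_sub, smul_smul, pow_succ]
    rw [mul_comm ((1/2 : ℝ) ^ n) (1/2)]
  rw [h2, norm_smul, Real.norm_eq_abs, abs_of_nonneg (by positivity)]
  calc (4:ℝ) ^ n * ‖(4:ℝ) • M ((1/2 : ℝ) • (((1/2 : ℝ) ^ n) • y)) - M (((1/2 : ℝ) ^ n) • y)‖
      ≤ (4:ℝ) ^ n * (5 * C * ‖((1/2 : ℝ) ^ n) • y‖ ^ s) :=
        mul_le_mul_of_nonneg_left h1 (by positivity)
    _ = 5 * C * ((4:ℝ) ^ n * (((1/2 : ℝ) ^ n * ‖y‖) ^ s)) := by rw [norm_half_pow]; ring
    _ = 5 * C * ‖y‖ ^ s * ((2:ℝ) ^ (2 - s)) ^ n := by rw [pow_rpow n (norm_nonneg y)]; ring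

variable [CompleteSpace F]

theorem exists_small (r : ℝ) (hr : 0 < r) (x : ℝ) :
    ∃ k : ℕ, ∀ n ≥ k, (1/2 : ℝ) ^ n * x ≤ r := by
  have h1 : Tendsto (fun n : ℕ => (1/2 : ℝ) ^ n * x) atTop (𝓝 (0 * x)) :=
    (tendsto_pow_atTop_nhds_zero_of_lt_one (by norm_num) (by norm_num)).mul_const x
  rw [zero_mul] at h1
  obtain ⟨k, hk⟩ := eventually_atTop.1 (h1.eventually (eventually_le_nhds hr))
  exact ⟨k, fun n hn => hk n hn⟩

theorem Rel.tendsto {M : E → F} {C r s : ℝ} (h : Rel M C r s) (hr : 0 < r) (hs : 2 < s)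
    (y : E) : ∃ q : F, Tendsto (fun n => app M n y) atTop (𝓝 q) := by
  obtain ⟨k, hk⟩ := exists_small r hr ‖y‖
  have hy : ‖((1/2 : ℝ) ^ k) • y‖ ≤ r := by rw [norm_half_pow]; exact hk k le_rfl
  obtain ⟨q, hq⟩ := cauchySeq_tendsto_of_complete
    (cauchySeq_of_le_geometric _ _ (q_lt_one hs) (h.step hr hs hy))
  refine ⟨((4:ℝ) ^ k) • q, ?_⟩
  rw [← tendsto_add_atTop_iff_nat k]
  simp only [app_add]
  exact hq.const_smul _

/-- the limiting quadratic map -/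
noncomputable def lim (M : E → F) (y : E) : F := limUnder atTop (fun n => app M n y)

theorem Rel.tendsto_lim {M : E → F} {C r s : ℝ} (h : Rel M C r s) (hr : 0 < r) (hs : 2 < s)
    (y : E) : Tendsto (fun n => app M n y) atTop (𝓝 (lim M y)) :=
  tendsto_nhds_limUnder (h.tendsto hr hs y)

theorem Rel.dist_lim {M : E → F} {C r s : ℝ} (h : Rel M C r s) (hr : 0 < r) (hs : 2 < s)
    {y : E} (hy : ‖y‖ ≤ r) :
    ‖M y - lim M y‖ ≤ 5 * C / (1 - (2:ℝ) ^ (2 - s)) * ‖y‖ ^ s := by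
  have h1 := dist_le_of_le_geometric_of_tendsto₀ _ _ (q_lt_one hs) (h.step hr hs hy)
    (h.tendsto_lim hr hs y)
  rw [app_zero, dist_eq_norm] at h1
  calc ‖M y - lim M y‖ ≤ 5 * C * ‖y‖ ^ s / (1 - (2:ℝ) ^ (2 - s)) := h1
    _ = _ := by ring

theorem Rel.exact {M : E → F} {C r s : ℝ} (h : Rel M C r s) (hr : 0 < r) (hs : 2 < s)
    {ι : Type*} [Fintype ι] (c : ι → ℝ) (y : ι → E)
    (hrel : ∀ f g : E →L[ℝ] ℝ, ∑ i, c i * (f (y i) * g (y i)) = 0) :
    ∑ i, c i • lim M (y i) = 0 := by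
  have hC : 0 ≤ C := by
    have := (norm_nonneg _).trans (h r hr le_rfl 0 (fun _ => 0) (fun _ => 0) (by simp)
      (by simp) (by simp))
    have hp : 0 < r ^ s := Real.rpow_pos_of_pos hr s
    by_contra hC
    push Not at hC
    nlinarith
  set S : ℝ := (∑ i, |c i|) + 1 with hS
  have hSp : 0 < S := by positivity
  set T : ℝ := (∑ i, ‖y i‖) + 1 with hT
  have hTp : 0 < T := by positivity
  have hyT : ∀ i, ‖y i‖ ≤ T := fun i =>
    (Finset.single_le_sum (f := fun i => ‖y i‖) (fun j _ => norm_nonneg _)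
      (Finset.mem_univ i)).trans (by rw [hT]; linarith)
  have h1 : Tendsto (fun n => ∑ i, c i • app M n (y i)) atTop (𝓝 (∑ i, c i • lim M (y i))) :=
    tendsto_finsetSum _ fun i _ => (h.tendsto_lim hr hs (y i)).const_smul _
  obtain ⟨k, hk⟩ := exists_small r hr T
  have h2 : ∀ n ≥ k, ‖∑ i, c i • app M n (y i)‖ ≤ S * C * T ^ s * ((2:ℝ) ^ (2 - s)) ^ n := by
    intro n hn
    have h3 := h.fintype (t := (1/2 : ℝ) ^ n * T) (by positivity) (hk n hn)
      (fun i => S⁻¹ * c i) (fun i => ((1/2 : ℝ) ^ n) • y i) (by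
        simp only [abs_mul, abs_of_pos (inv_pos.2 hSp)]
        rw [← Finset.mul_sum, inv_mul_le_iff₀ hSp, mul_one, hS]
        linarith) (fun i => by
        rw [norm_half_pow]
        exact mul_le_mul_of_nonneg_left (hyT i) (by positivity)) (fun f g => by
        simp only [map_smul, smul_eq_mul]
        have : ∀ i, S⁻¹ * c i * ((1/2 : ℝ) ^ n * f (y i) * ((1/2 : ℝ) ^ n * g (y i)))
            = (S⁻¹ * (1/2 : ℝ) ^ n * (1/2 : ℝ) ^ n) * (c i * (f (y i) * g (y i))) := by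
          intro i; ring
        simp only [this]
        rw [← Finset.mul_sum, hrel f g, mul_zero])
    have h4 : ∑ i, c i • app M n (y i)
        = (S * (4:ℝ) ^ n) • ∑ i, (S⁻¹ * c i) • M (((1/2 : ℝ) ^ n) • y i) := by
      rw [Finset.smul_sum]
      refine Finset.sum_congr rfl fun i _ => ?_
      simp only [app, smul_smul]
      congr 1
      field_simp
    rw [h4, norm_smul, Real.norm_eq_abs, abs_of_nonneg (by positivity)]
    calc S * (4:ℝ) ^ n * ‖∑ i, (S⁻¹ * c i) • M (((1/2 : ℝ) ^ n) • y i)‖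
        ≤ S * (4:ℝ) ^ n * (C * ((1/2 : ℝ) ^ n * T) ^ s) :=
          mul_le_mul_of_nonneg_left h3 (by positivity)
      _ = S * C * ((4:ℝ) ^ n * ((1/2 : ℝ) ^ n * T) ^ s) := by ring
      _ = S * C * T ^ s * ((2:ℝ) ^ (2 - s)) ^ n := by rw [pow_rpow n hTp.le]; ring
  have h5 : Tendsto (fun n => ∑ i, c i • app M n (y i)) atTop (𝓝 0) := by
    refine squeeze_zero_norm' (eventually_atTop.2 ⟨k, h2⟩) ?_
    have := (tendsto_pow_atTop_nhds_zero_of_lt_one (Real.rpow_nonneg (by norm_num) _)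
      (q_lt_one hs)).const_mul (S * C * T ^ s)
    simpa using this
  exact tendsto_nhds_unique h1 h5

theorem Rel.homog {M : E → F} {C r s : ℝ} (h : Rel M C r s) (hr : 0 < r) (hs : 2 < s)
    (a : ℝ) (y : E) : lim M (a • y) = (a ^ 2) • lim M y := by
  have h1 := h.exact hr hs (ι := Fin 2) ![1, -a ^ 2] ![a • y, y] (fun f g => by
    rw [Fin.sum_univ_two]
    simp only [Matrix.cons_val_zero, Matrix.cons_val_one, map_smul, smul_eq_mul]
    ring)
  rw [Fin.sum_univ_two] at h1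
  simp only [Matrix.cons_val_zero, Matrix.cons_val_one, one_smul, neg_smul] at h1
  exact add_neg_eq_zero.1 h1

/-- **(I4)**, the first form: `Q` is a continuous symmetric bilinear map. -/
theorem quad_of_rel [FiniteDimensional ℝ E] {M : E → F} {C r s : ℝ} (hs : 2 < s) (hr : 0 < r)
    (h : Rel M C r s) :
    ∃ Q : E →L[ℝ] E →L[ℝ] F, (∀ x y, Q x y = Q y x) ∧ (∀ y, Q y y = lim M y) ∧
      ∀ y, ‖y‖ ≤ r → ‖M y - Q y y‖ ≤ 5 * C / (1 - (2:ℝ) ^ (2 - s)) * ‖y‖ ^ s := by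
  classical
  set d := Module.finrank ℝ E with hd
  let b : Module.Basis (Fin d) ℝ E := Module.finBasis ℝ E
  let φ : Fin d → E →L[ℝ] ℝ := fun i => LinearMap.toContinuousLinearMap (b.coord i)
  have hφ : ∀ i y, φ i y = b.repr y i := fun i y => rfl
  let B : Fin d → Fin d → F := fun i j =>
    (1/2 : ℝ) • (lim M (b i + b j) - lim M (b i) - lim M (b j))
  have hBs : ∀ i j, B i j = B j i := by
    intro i j
    simp only [B]
    rw [add_comm (b j) (b i)]
    congr 1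
    abel
  let Q : E →L[ℝ] E →L[ℝ] F := ∑ i, ∑ j, (φ i).smulRight ((φ j).smulRight (B i j))
  have hQ : ∀ x y, Q x y = ∑ i, ∑ j, (φ i x * φ j y) • B i j := by
    intro x y
    simp only [Q, sum_apply, ContinuousLinearMap.smulRight_apply,
      smul_apply, smul_smul]
  have hsym : ∀ x y, Q x y = Q y x := by
    intro x y
    rw [hQ, hQ, Finset.sum_comm]
    refine Finset.sum_congr rfl fun i _ => Finset.sum_congr rfl fun j _ => ?_
    rw [hBs j i, mul_comm]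
  have hdiag : ∀ y, Q y y = lim M y := by
    intro y
    have h1 := h.exact hr hs (ι := Option (Fin d × Fin d × Fin 3))
      (fun o => match o with
        | none => 1
        | some (i, j, k) => (![-1, 1, 1] k) * ((1/2) * (φ i y * φ j y)))
      (fun o => match o with
        | none => y
        | some (i, j, k) => (![b i + b j, b i, b j] k)) (fun f g => by
        rw [Fintype.sum_option]
        simp only [Fintype.sum_prod_type, Fin.sum_univ_three, Matrix.cons_val_zero,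
          Matrix.cons_val_one, Matrix.cons_val, map_add]
        have hf : f y = ∑ i, φ i y * f (b i) := by
          conv_lhs => rw [← b.sum_repr y]
          simp only [map_sum, map_smul, smul_eq_mul, hφ]
        have hg : g y = ∑ i, φ i y * g (b i) := by
          conv_lhs => rw [← b.sum_repr y]
          simp only [map_sum, map_smul, smul_eq_mul, hφ]
        have e1 : f y * g y = ∑ i, ∑ j, (φ i y * φ j y) * (f (b i) * g (b j)) := by
          rw [hf, hg, Finset.sum_mul_sum]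
          refine Finset.sum_congr rfl fun i _ => Finset.sum_congr rfl fun j _ => ?_
          ring
        have e2 : f y * g y = ∑ i, ∑ j, (φ i y * φ j y) * (f (b j) * g (b i)) := by
          rw [e1, Finset.sum_comm]
          refine Finset.sum_congr rfl fun i _ => Finset.sum_congr rfl fun j _ => ?_
          ring
        have e3 : f y * g y = ∑ i, ∑ j, ((1/2) * (φ i y * φ j y)) *
            (f (b i) * g (b j) + f (b j) * g (b i)) := by
          have : f y * g y = (1/2) * (f y * g y) + (1/2) * (f y * g y) := by ring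
          rw [this]
          conv_lhs => rw [e1]
          rw [← e1]
          conv_lhs => enter [1]; rw [e1]
          conv_lhs => enter [2]; rw [e2]
          rw [Finset.mul_sum, Finset.mul_sum, ← Finset.sum_add_distrib]
          refine Finset.sum_congr rfl fun i _ => ?_
          rw [Finset.mul_sum, Finset.mul_sum, ← Finset.sum_add_distrib]
          refine Finset.sum_congr rfl fun j _ => ?_
          ring
        rw [e3, one_mul, ← Finset.sum_add_distrib]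
        refine Finset.sum_eq_zero fun i _ => ?_
        rw [← Finset.sum_add_distrib]
        refine Finset.sum_eq_zero fun j _ => ?_
        ring)
    rw [Fintype.sum_option] at h1
    simp only [Fintype.sum_prod_type, Fin.sum_univ_three, Matrix.cons_val_zero,
      Matrix.cons_val_one, Matrix.cons_val, one_smul] at h1
    rw [hQ]
    rw [eq_comm, ← sub_eq_zero, sub_eq_add_neg]
    rw [← h1]
    congr 1
    rw [← Finset.sum_neg_distrib]
    refine Finset.sum_congr rfl fun i _ => ?_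
    rw [← Finset.sum_neg_distrib]
    refine Finset.sum_congr rfl fun j _ => ?_
    simp only [B, smul_sub, smul_smul]
    module
  refine ⟨Q, hsym, hdiag, fun y hy => ?_⟩
  rw [hdiag y]
  exact h.dist_lim hr hs hy

omit [CompleteSpace F] in
/-- a symmetric bilinear map is controlled by its diagonal -/
theorem opNorm_le {Q : E →L[ℝ] E →L[ℝ] F} (hs : ∀ x y, Q x y = Q y x) {K : ℝ} (hK : 0 ≤ K)
    (h : ∀ y, ‖Q y y‖ ≤ K * ‖y‖ ^ 2) : ‖Q‖ ≤ 2 * K := by
  refine ContinuousLinearMap.opNorm_le_bound₂ _ (by positivity) fun x y => ?_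
  rcases eq_or_ne x 0 with rfl | hx
  · simp
  rcases eq_or_ne y 0 with rfl | hy
  · simp
  have hxp : 0 < ‖x‖ := norm_pos_iff.2 hx
  have hyp : 0 < ‖y‖ := norm_pos_iff.2 hy
  set u := (‖x‖⁻¹) • x with hu
  set v := (‖y‖⁻¹) • y with hv
  have hun : ‖u‖ = 1 := by
    rw [hu, norm_smul, norm_inv, norm_norm, inv_mul_cancel₀ hxp.ne']
  have hvn : ‖v‖ = 1 := by
    rw [hv, norm_smul, norm_inv, norm_norm, inv_mul_cancel₀ hyp.ne']
  have hxu : x = ‖x‖ • u := by rw [hu, smul_smul, mul_inv_cancel₀ hxp.ne', one_smul]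
  have hyv : y = ‖y‖ • v := by rw [hv, smul_smul, mul_inv_cancel₀ hyp.ne', one_smul]
  have h1 : (4:ℝ) • Q u v = Q (u + v) (u + v) - Q (u - v) (u - v) := by
    simp only [map_add, map_sub, add_apply, sub_apply]
    rw [hs v u]
    module
  have h2 : ‖Q u v‖ ≤ 2 * K := by
    have h3 : ‖(4:ℝ) • Q u v‖ ≤ 8 * K := by
      rw [h1]
      have e1 : ‖u + v‖ ≤ 2 := (norm_add_le _ _).trans (by rw [hun, hvn]; norm_num)
      have e2 : ‖u - v‖ ≤ 2 := (norm_sub_le _ _).trans (by rw [hun, hvn]; norm_num)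
      calc ‖Q (u + v) (u + v) - Q (u - v) (u - v)‖
          ≤ ‖Q (u + v) (u + v)‖ + ‖Q (u - v) (u - v)‖ := norm_sub_le _ _
        _ ≤ K * ‖u + v‖ ^ 2 + K * ‖u - v‖ ^ 2 := add_le_add (h _) (h _)
        _ ≤ K * 2 ^ 2 + K * 2 ^ 2 := by gcongr
        _ = 8 * K := by ring
    rw [norm_smul, Real.norm_eq_abs, abs_of_pos (by norm_num : (0:ℝ) < 4)] at h3
    linarith
  have h4 : Q x y = (‖x‖ * ‖y‖) • Q u v := by
    conv_lhs => rw [hxu, hyv]
    simp only [map_smul, smul_apply, smul_smul]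
    rw [mul_comm]
  rw [h4, norm_smul, Real.norm_eq_abs, abs_of_pos (mul_pos hxp hyp)]
  calc ‖x‖ * ‖y‖ * ‖Q u v‖ ≤ ‖x‖ * ‖y‖ * (2 * K) :=
        mul_le_mul_of_nonneg_left h2 (mul_pos hxp hyp).le
    _ = 2 * K * ‖x‖ * ‖y‖ := by ring

/-- the bound of the limiting quadratic form -/
theorem Rel.norm_lim {M : E → F} {C r s K : ℝ} (h : Rel M C r s) (hr : 0 < r) (hs : 2 < s)
    (hK : ∀ y, ‖y‖ ≤ r → ‖M y‖ ≤ K) (y : E) :
    ‖lim M y‖ ≤ (K + 5 * C / (1 - (2:ℝ) ^ (2 - s)) * r ^ s) / r ^ 2 * ‖y‖ ^ 2 := by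
  rcases eq_or_ne y 0 with rfl | hy
  · have := h.homog hr hs 0 (0 : E)
    simp only [smul_zero] at this
    rw [this]
    simp
  have hyp : 0 < ‖y‖ := norm_pos_iff.2 hy
  set z := (r / ‖y‖) • y with hz
  have hzn : ‖z‖ = r := by
    rw [hz, norm_smul, Real.norm_eq_abs, abs_of_pos (div_pos hr hyp), div_mul_cancel₀ _ hyp.ne']
  have hyz : y = (‖y‖ / r) • z := by
    rw [hz, smul_smul, div_mul_div_comm, mul_comm r, div_self (mul_pos hyp hr).ne', one_smul]
  have h1 : ‖lim M z‖ ≤ K + 5 * C / (1 - (2:ℝ) ^ (2 - s)) * r ^ s := by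
    have h2 := h.dist_lim hr hs (y := z) hzn.le
    rw [hzn] at h2
    have h3 := hK z hzn.le
    have h4 : lim M z = M z - (M z - lim M z) := by abel
    rw [h4]
    exact (norm_sub_le _ _).trans (add_le_add h3 h2)
  have h5 : lim M y = ((‖y‖ / r) ^ 2) • lim M z := by
    rw [← h.homog hr hs, ← hyz]
  rw [h5, norm_smul, Real.norm_eq_abs, abs_of_nonneg (by positivity)]
  calc (‖y‖ / r) ^ 2 * ‖lim M z‖
      ≤ (‖y‖ / r) ^ 2 * (K + 5 * C / (1 - (2:ℝ) ^ (2 - s)) * r ^ s) :=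
        mul_le_mul_of_nonneg_left h1 (by positivity)
    _ = _ := by ring

/-- (I4) with the bound of `Q`. -/
theorem quad_of_rel_bound [FiniteDimensional ℝ E] {M : E → F} {C r s K : ℝ} (hs : 2 < s)
    (hr : 0 < r) (h : Rel M C r s) (hK : ∀ y, ‖y‖ ≤ r → ‖M y‖ ≤ K) :
    ∃ Q : E →L[ℝ] E →L[ℝ] F, (∀ x y, Q x y = Q y x) ∧
      (∀ y, ‖y‖ ≤ r → ‖M y - Q y y‖ ≤ 5 * C / (1 - (2:ℝ) ^ (2 - s)) * ‖y‖ ^ s) ∧
      ‖Q‖ ≤ 2 * ((K + 5 * C / (1 - (2:ℝ) ^ (2 - s)) * r ^ s) / r ^ 2) := by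
  obtain ⟨Q, hQs, hQd, hQ⟩ := quad_of_rel hs hr h
  refine ⟨Q, hQs, hQ, ?_⟩
  refine opNorm_le hQs ?_ fun y => by rw [hQd]; exact h.norm_lim hr hs hK y
  have hK0 : 0 ≤ K := (norm_nonneg _).trans (hK 0 (by simp [hr.le]))
  have hC : 0 ≤ C := by
    have := (norm_nonneg _).trans (h r hr le_rfl 0 (fun _ => 0) (fun _ => 0) (by simp)
      (by simp) (by simp))
    have hp : 0 < r ^ s := Real.rpow_pos_of_pos hr s
    by_contra hC
    push Not at hC
    nlinarith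
  have hq := q_lt_one hs
  have : 0 < 1 - (2:ℝ) ^ (2 - s) := by linarith
  positivity

omit [CompleteSpace F] in
/-- uniqueness of the quadratic part: a map with a homogeneous of degree two and `O(|y| ^ s)`
difference vanishes. -/
theorem unique_of_homog {q : E → F} (hq : ∀ (a : ℝ) y, q (a • y) = (a ^ 2) • q y)
    {C r s : ℝ} (hs : 2 < s) (hr : 0 < r) (h : ∀ y, ‖y‖ ≤ r → ‖q y‖ ≤ C * ‖y‖ ^ s) (y : E) :
    q y = 0 := by
  obtain ⟨k, hk⟩ := exists_small r hr ‖y‖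
  have h1 : ∀ n ≥ k, ‖q y‖ ≤ C * ‖y‖ ^ s * ((2:ℝ) ^ (2 - s)) ^ n := by
    intro n hn
    have h2 := h (((1/2 : ℝ) ^ n) • y) (by rw [norm_half_pow]; exact hk n hn)
    rw [hq, norm_smul, norm_half_pow, Real.norm_eq_abs, abs_of_nonneg (by positivity)] at h2
    have h3 : ‖q y‖ = (4:ℝ) ^ n * (((1/2 : ℝ) ^ n) ^ 2 * ‖q y‖) := by
      rw [← mul_assoc, ← pow_mul, mul_comm n 2, pow_mul, ← mul_pow]
      norm_num
    rw [h3]
    calc (4:ℝ) ^ n * (((1/2 : ℝ) ^ n) ^ 2 * ‖q y‖)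
        ≤ (4:ℝ) ^ n * (C * ((1/2 : ℝ) ^ n * ‖y‖) ^ s) :=
          mul_le_mul_of_nonneg_left h2 (by positivity)
      _ = C * ((4:ℝ) ^ n * ((1/2 : ℝ) ^ n * ‖y‖) ^ s) := by ring
      _ = _ := by rw [pow_rpow n (norm_nonneg y)]; ring
  have h2 : Tendsto (fun n : ℕ => C * ‖y‖ ^ s * ((2:ℝ) ^ (2 - s)) ^ n) atTop (𝓝 0) := by
    have := (tendsto_pow_atTop_nhds_zero_of_lt_one (Real.rpow_nonneg (by norm_num) _)
      (q_lt_one hs)).const_mul (C * ‖y‖ ^ s)
    simpa using this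
  exact norm_le_zero_iff.1 (ge_of_tendsto h2 (eventually_atTop.2 ⟨k, h1⟩))

omit [CompleteSpace F] in
theorem quad_unique {Q Q' : E →L[ℝ] E →L[ℝ] F} (hQ : ∀ x y, Q x y = Q y x)
    (hQ' : ∀ x y, Q' x y = Q' y x) {C r s : ℝ} (hs : 2 < s) (hr : 0 < r)
    (h : ∀ y, ‖y‖ ≤ r → ‖Q y y - Q' y y‖ ≤ C * ‖y‖ ^ s) : Q = Q' := by
  have h1 := unique_of_homog (q := fun y => Q y y - Q' y y) (fun a y => by
    simp only [map_smul, smul_apply, smul_smul, smul_sub]
    rw [pow_two]) hs hr h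
  have h2 : ‖Q - Q'‖ ≤ 2 * 0 := by
    refine opNorm_le (fun x y => ?_) le_rfl fun y => ?_
    · rw [sub_apply, sub_apply, sub_apply, sub_apply, hQ, hQ']
    · rw [sub_apply, sub_apply, h1 y, norm_zero, zero_mul]
  rw [mul_zero] at h2
  exact sub_eq_zero.1 (norm_le_zero_iff.1 h2)

end Vale.Agent.P207.H717.Quad
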