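import Vale.Agent.P207.H717.Lim
import Vale.Agent.P207.H717.Quad

/-!
P207, all dimensions, abstract form of the end of step 7: uniform two-jets with an error
`O(|y| ^ s)` and a contracting linear recursion with smooth inhomogeneity give smoothness.
-/

namespace Vale.Agent.P207.H717.End7

open Filter Topology Metric
open scoped ContDiff

universe u

variable {E : Type u} [NormedAddCommGroup E] [NormedSpace ℝ E]

section taylor

variable {F : Type u} [NormedAddCommGroup F] [NormedSpace ℝ F]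

/-- remainder of order one -/
noncomputable def E1 (h : E → F) (y : E) : F := h y - h 0

/-- remainder of order two -/
noncomputable def E2 (h : E → F) (y : E) : F := h y - (h 0 + fderiv ℝ h 0 y)

/-- the two-jet at zero -/
noncomputable def T2 (h : E → F) (y : E) : F :=
  h 0 + fderiv ℝ h 0 y + (1/2 : ℝ) • (fderiv ℝ (fderiv ℝ h) 0 y y)

/-- remainder of order three -/
noncomputable def E3 (h : E → F) (y : E) : F := h y - T2 h y

omit [NormedSpace ℝ E] [NormedSpace ℝ F] in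
theorem E1_zero (h : E → F) : E1 h 0 = 0 := by simp [E1]
theorem E2_zero (h : E → F) : E2 h 0 = 0 := by simp [E2]
theorem E3_zero (h : E → F) : E3 h 0 = 0 := by simp [E3, T2]

theorem hasFDerivAt_of_mem {U : Set E} (hU : IsOpen U) {f : E → F} (hf : ContDiffOn ℝ ∞ f U)
    {y : E} (hy : y ∈ U) : HasFDerivAt f (fderiv ℝ f y) y :=
  ((hf.differentiableOn (by simp) y hy).differentiableAt (hU.mem_nhds hy)).hasFDerivAt

theorem hasFDerivAt_E1 {U : Set E} (hU : IsOpen U) {f : E → F} (hf : ContDiffOn ℝ ∞ f U)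
    {y : E} (hy : y ∈ U) : HasFDerivAt (E1 f) (fderiv ℝ f y) y :=
  (hasFDerivAt_of_mem hU hf hy).sub_const _

theorem hasFDerivAt_E2 {U : Set E} (hU : IsOpen U) {f : E → F} (hf : ContDiffOn ℝ ∞ f U)
    {y : E} (hy : y ∈ U) : HasFDerivAt (E2 f) (E1 (fderiv ℝ f) y) y :=
  (hasFDerivAt_of_mem hU hf hy).sub ((fderiv ℝ f 0).hasFDerivAt.const_add _)

theorem hasFDerivAt_E3 {U : Set E} (hU : IsOpen U) (h0 : (0:E) ∈ U) {f : E → F}
    (hf : ContDiffOn ℝ ∞ f U) {y : E} (hy : y ∈ U) :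
    HasFDerivAt (E3 f) (E2 (fderiv ℝ f) y) y := by
  have hsym : IsSymmSndFDerivAt ℝ f 0 :=
    ((hf 0 h0).contDiffAt (hU.mem_nhds h0)).isSymmSndFDerivAt (by
      rw [minSmoothness_of_isRCLikeNormedField]
      exact ENat.LEInfty.out)
  set B := fderiv ℝ (fderiv ℝ f) 0 with hB
  have h1 : HasFDerivAt (fun z : E => B z z) (B.precompR E y (ContinuousLinearMap.id ℝ E) +
      B.precompL E (ContinuousLinearMap.id ℝ E) y) y :=
    B.hasFDerivAt_of_bilinear (hasFDerivAt_id y) (hasFDerivAt_id y)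
  have h2 := (hasFDerivAt_of_mem hU hf hy).sub
    (((fderiv ℝ f 0).hasFDerivAt.const_add (f 0) (x := y)).add (h1.const_smul (1/2 : ℝ)))
  refine h2.congr_fderiv ?_
  ext w
  simp only [E2, sub_apply, add_apply, smul_apply, ContinuousLinearMap.precompR_apply,
    ContinuousLinearMap.precompL_apply, ContinuousLinearMap.compL_apply,
    ContinuousLinearMap.comp_apply, ContinuousLinearMap.id_apply]
  have e : B w y = B y w := hsym.eq w y
  rw [← hB, e]
  module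

theorem mv {φ : E → F} {φ' : E → E →L[ℝ] F} {R c : ℝ} (hc : 0 ≤ c) (p : ℕ) (h0 : φ 0 = 0)
    (hd : ∀ z ∈ ball (0:E) R, HasFDerivAt φ (φ' z) z)
    (hb : ∀ z ∈ ball (0:E) R, ‖φ' z‖ ≤ c * ‖z‖ ^ p) {y : E} (hy : y ∈ ball (0:E) R) :
    ‖φ y‖ ≤ c * ‖y‖ ^ (p + 1) := by
  have hsub : closedBall (0:E) ‖y‖ ⊆ ball (0:E) R :=
    closedBall_subset_ball (by simpa using hy)
  have h1 := (convex_closedBall (0:E) ‖y‖).norm_image_sub_le_of_norm_hasFDerivWithin_le
    (f := φ) (f' := φ') (C := c * ‖y‖ ^ p) (x := 0) (y := y)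
    (fun z hz => (hd z (hsub hz)).hasFDerivWithinAt) (fun z hz => by
      refine (hb z (hsub hz)).trans ?_
      have : ‖z‖ ≤ ‖y‖ := by simpa using hz
      gcongr) (by simp) (by simp)
  rw [h0, sub_zero, sub_zero] at h1
  rw [pow_succ, ← mul_assoc]
  exact h1

variable {R : ℝ} {f : E → F} {M : ℕ → ℝ}

theorem bound_nonneg (hM : ∀ k, ∀ y ∈ ball (0:E) R, ‖iteratedFDeriv ℝ k f y‖ ≤ M k)
    (hR : 0 < R) (k : ℕ) : 0 ≤ M k := (norm_nonneg _).trans (hM k 0 (mem_ball_self hR))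

theorem norm_E1 (hR : 0 < R) (hf : ContDiffOn ℝ ∞ f (ball (0:E) R))
    (hM : ∀ k, ∀ y ∈ ball (0:E) R, ‖iteratedFDeriv ℝ k f y‖ ≤ M k) {y : E}
    (hy : y ∈ ball (0:E) R) : ‖E1 f y‖ ≤ M 1 * ‖y‖ := by
  have := mv (φ := E1 f) (bound_nonneg hM hR 1) 0 (E1_zero f)
    (fun z hz => hasFDerivAt_E1 isOpen_ball hf hz) (fun z hz => by
      rw [← norm_iteratedFDeriv_one, pow_zero, mul_one]; exact hM 1 z hz) hy
  simpa using this

theorem bounds_fderiv (hM : ∀ k, ∀ y ∈ ball (0:E) R, ‖iteratedFDeriv ℝ k f y‖ ≤ M k) :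
    ∀ k, ∀ y ∈ ball (0:E) R, ‖iteratedFDeriv ℝ k (fderiv ℝ f) y‖ ≤ M (k + 1) := by
  intro k y hy
  rw [norm_iteratedFDeriv_fderiv]
  exact hM _ y hy

theorem norm_E2 (hR : 0 < R) (hf : ContDiffOn ℝ ∞ f (ball (0:E) R))
    (hM : ∀ k, ∀ y ∈ ball (0:E) R, ‖iteratedFDeriv ℝ k f y‖ ≤ M k) {y : E}
    (hy : y ∈ ball (0:E) R) : ‖E2 f y‖ ≤ M 2 * ‖y‖ ^ 2 := by
  have hf' : ContDiffOn ℝ ∞ (fderiv ℝ f) (ball (0:E) R) :=
    hf.fderiv_of_isOpen isOpen_ball (by simp)
  exact mv (φ := E2 f) (bound_nonneg hM hR 2) 1 (E2_zero f)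
    (fun z hz => hasFDerivAt_E2 isOpen_ball hf hz) (fun z hz => by
      rw [pow_one]; exact norm_E1 hR hf' (bounds_fderiv hM) hz) hy

theorem norm_E3 (hR : 0 < R) (hf : ContDiffOn ℝ ∞ f (ball (0:E) R))
    (hM : ∀ k, ∀ y ∈ ball (0:E) R, ‖iteratedFDeriv ℝ k f y‖ ≤ M k) {y : E}
    (hy : y ∈ ball (0:E) R) : ‖E3 f y‖ ≤ M 3 * ‖y‖ ^ 3 := by
  have hf' : ContDiffOn ℝ ∞ (fderiv ℝ f) (ball (0:E) R) :=
    hf.fderiv_of_isOpen isOpen_ball (by simp)
  exact mv (φ := E3 f) (bound_nonneg hM hR 3) 2 (E3_zero f)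
    (fun z hz => hasFDerivAt_E3 isOpen_ball (mem_ball_self hR) hf hz)
    (fun z hz => norm_E2 hR hf' (bounds_fderiv hM) hz) hy

theorem T2_contDiff (f : E → F) : ContDiff ℝ ∞ (T2 f) := by
  unfold T2
  refine (contDiff_const.add (fderiv ℝ f 0).contDiff).add (contDiff_const.smul ?_)
  exact (fderiv ℝ (fderiv ℝ f) 0).isBoundedBilinearMap.contDiff.comp
    (contDiff_id.prodMk contDiff_id)

theorem E3_contDiffOn (hf : ContDiffOn ℝ ∞ f (ball (0:E) R)) :
    ContDiffOn ℝ ∞ (E3 f) (ball (0:E) R) := hf.sub (T2_contDiff f).contDiffOn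

omit [NormedSpace ℝ E] in
theorem eqOn_nhds {U : Set E} (hU : IsOpen U) {y : E} (hy : y ∈ U) {G : Type*} {a b : E → G}
    (h : ∀ z ∈ U, a z = b z) : a =ᶠ[𝓝 y] b := by
  filter_upwards [hU.mem_nhds hy] with z hz using h z hz

theorem fderiv_E1 (hf : ContDiffOn ℝ ∞ f (ball (0:E) R)) {y : E} (hy : y ∈ ball (0:E) R) :
    fderiv ℝ (E1 f) =ᶠ[𝓝 y] fderiv ℝ f :=
  eqOn_nhds isOpen_ball hy fun _ hz => (hasFDerivAt_E1 isOpen_ball hf hz).fderiv

theorem fderiv_E2 (hf : ContDiffOn ℝ ∞ f (ball (0:E) R)) {y : E} (hy : y ∈ ball (0:E) R) :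
    fderiv ℝ (E2 f) =ᶠ[𝓝 y] E1 (fderiv ℝ f) :=
  eqOn_nhds isOpen_ball hy fun _ hz => (hasFDerivAt_E2 isOpen_ball hf hz).fderiv

theorem fderiv_E3 (hR : 0 < R) (hf : ContDiffOn ℝ ∞ f (ball (0:E) R)) {y : E}
    (hy : y ∈ ball (0:E) R) : fderiv ℝ (E3 f) =ᶠ[𝓝 y] E2 (fderiv ℝ f) :=
  eqOn_nhds isOpen_ball hy fun _ hz =>
    (hasFDerivAt_E3 isOpen_ball (mem_ball_self hR) hf hz).fderiv

theorem norm_it_succ {G : Type u} [NormedAddCommGroup G] [NormedSpace ℝ G] {φ : E → G}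
    {ψ : E → E →L[ℝ] G} {y : E} (h : fderiv ℝ φ =ᶠ[𝓝 y] ψ) (k : ℕ) :
    ‖iteratedFDeriv ℝ (k + 1) φ y‖ = ‖iteratedFDeriv ℝ k ψ y‖ := by
  rw [← norm_iteratedFDeriv_fderiv, (h.iteratedFDeriv ℝ k).eq_of_nhds]

/-- all the bounds for the third order remainder -/
theorem bounds_E3 (hR : 0 < R) (hf : ContDiffOn ℝ ∞ f (ball (0:E) R))
    (hM : ∀ k, ∀ y ∈ ball (0:E) R, ‖iteratedFDeriv ℝ k f y‖ ≤ M k) (k : ℕ) {y : E}
    (hy : y ∈ ball (0:E) R) :
    ‖iteratedFDeriv ℝ k (E3 f) y‖ ≤ (if k < 3 then M 3 else M k) * ‖y‖ ^ (3 - k) := by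
  have hf' : ContDiffOn ℝ ∞ (fderiv ℝ f) (ball (0:E) R) :=
    hf.fderiv_of_isOpen isOpen_ball (by simp)
  have hf'' : ContDiffOn ℝ ∞ (fderiv ℝ (fderiv ℝ f)) (ball (0:E) R) :=
    hf'.fderiv_of_isOpen isOpen_ball (by simp)
  have hM' := bounds_fderiv hM
  have hM'' := bounds_fderiv hM'
  match k with
  | 0 =>
    rw [norm_iteratedFDeriv_zero]
    simpa using norm_E3 hR hf hM hy
  | 1 =>
    rw [norm_it_succ (fderiv_E3 hR hf hy), norm_iteratedFDeriv_zero]
    simpa using norm_E2 hR hf' hM' hy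
  | 2 =>
    rw [norm_it_succ (fderiv_E3 hR hf hy), norm_it_succ (fderiv_E2 hf' hy),
      norm_iteratedFDeriv_zero]
    simpa using norm_E1 hR hf'' hM'' hy
  | (k + 3) =>
    rw [norm_it_succ (fderiv_E3 hR hf hy), norm_it_succ (fderiv_E2 hf' hy),
      norm_it_succ (fderiv_E1 hf'' hy)]
    have := bounds_fderiv hM'' k y hy
    simpa using this

end taylor

section comp

variable {F : Type u} [NormedAddCommGroup F] [NormedSpace ℝ F]

/-- derivatives of `A o e o D` for linear `A`, `D`, `|D| <= 1` -/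
theorem comp_bound {R d a : ℝ} {e : E → F} (he : ContDiffOn ℝ ∞ e (ball (0:E) R))
    (D : E →L[ℝ] E) (A : F →L[ℝ] F) (hd : ‖D‖ ≤ d) (hd1 : d ≤ 1) (ha : ‖A‖ ≤ a) :
    ContDiffOn ℝ ∞ (fun y => A (e (D y))) (ball (0:E) R) ∧
      ∀ k, ∀ y ∈ ball (0:E) R, ‖iteratedFDeriv ℝ k (fun y => A (e (D y))) y‖ ≤
        a * (‖iteratedFDeriv ℝ k e (D y)‖ * d ^ k) := by
  have hd0 : 0 ≤ d := (norm_nonneg _).trans hd
  have hmaps : ∀ y ∈ ball (0:E) R, D y ∈ ball (0:E) R := by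
    intro y hy
    rw [mem_ball_zero_iff] at hy ⊢
    calc ‖D y‖ ≤ ‖D‖ * ‖y‖ := D.le_opNorm y
      _ ≤ 1 * ‖y‖ := by gcongr; exact hd.trans hd1
      _ < R := by rwa [one_mul]
  have hpre : IsOpen (D ⁻¹' ball (0:E) R) := isOpen_ball.preimage D.continuous
  have hc : ContDiffOn ℝ ∞ (fun y => e (D y)) (D ⁻¹' ball (0:E) R) :=
    he.comp D.contDiff.contDiffOn (fun y hy => hy)
  refine ⟨A.contDiff.comp_contDiffOn (hc.mono hmaps), fun k y hy => ?_⟩
  have hcy : ContDiffAt ℝ ∞ (fun y => e (D y)) y :=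
    hc.contDiffAt (hpre.mem_nhds (hmaps y hy))
  have h1 := A.norm_iteratedFDeriv_comp_left hcy (n := k) (by exact ENat.LEInfty.out)
  have h2 : iteratedFDeriv ℝ k (fun y => e (D y)) y
      = (iteratedFDeriv ℝ k e (D y)).compContinuousLinearMap fun _ => D := by
    rw [← iteratedFDerivWithin_of_isOpen k isOpen_ball (hmaps y hy),
      ← iteratedFDerivWithin_of_isOpen (f := fun y => e (D y)) k hpre (hmaps y hy)]
    exact D.iteratedFDerivWithin_comp_right he isOpen_ball.uniqueDiffOn hpre.uniqueDiffOn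
      (hmaps y hy) (by exact ENat.LEInfty.out)
  have h3 : ‖iteratedFDeriv ℝ k (fun y => e (D y)) y‖ ≤ ‖iteratedFDeriv ℝ k e (D y)‖ * d ^ k := by
    rw [h2]
    refine (ContinuousMultilinearMap.norm_compContinuousLinearMap_le _ _).trans ?_
    rw [Finset.prod_const, Finset.card_univ, Fintype.card_fin]
    gcongr
  calc ‖iteratedFDeriv ℝ k (fun y => A (e (D y))) y‖
      ≤ ‖A‖ * ‖iteratedFDeriv ℝ k (fun y => e (D y)) y‖ := h1
    _ ≤ a * (‖iteratedFDeriv ℝ k e (D y)‖ * d ^ k) :=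
        mul_le_mul ha h3 (norm_nonneg _) ((norm_nonneg _).trans ha)

/-- degree `p` homogeneous and `O(|y| ^ s)`, `s > p`: zero -/
theorem hom_zero {q : E → F} (p : ℕ)
    (hq : ∀ (n : ℕ) y, q (((1/2 : ℝ) ^ n) • y) = (((1/2 : ℝ) ^ n) ^ p) • q y)
    {C r s : ℝ} (hs : (p:ℝ) < s) (hr : 0 < r) (h : ∀ y, ‖y‖ ≤ r → ‖q y‖ ≤ C * ‖y‖ ^ s) (y : E) :
    q y = 0 := by
  have hlim : Tendsto (fun n : ℕ => (1/2 : ℝ) ^ n * ‖y‖) atTop (𝓝 (0 * ‖y‖)) :=
    (tendsto_pow_atTop_nhds_zero_of_lt_one (by norm_num) (by norm_num)).mul_const _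
  rw [zero_mul] at hlim
  obtain ⟨k, hk⟩ := eventually_atTop.1 (hlim.eventually (eventually_le_nhds hr))
  have h1 : ∀ n ≥ k, ‖q y‖ ≤ C * ‖y‖ ^ s * ((2:ℝ) ^ ((p:ℝ) - s)) ^ n := by
    intro n hn
    have h2 := h (((1/2 : ℝ) ^ n) • y) (by rw [Quad.norm_half_pow]; exact hk n hn)
    rw [hq, norm_smul, Quad.norm_half_pow, Real.norm_eq_abs, abs_of_nonneg (by positivity)] at h2
    have h3 : ‖q y‖ = ((2:ℝ) ^ n) ^ p * (((1/2 : ℝ) ^ n) ^ p * ‖q y‖) := by
      rw [← mul_assoc, ← mul_pow, ← mul_pow]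
      norm_num
    have h4 : ((2:ℝ) ^ n) ^ p * (((1/2 : ℝ) ^ n * ‖y‖) ^ s)
        = ‖y‖ ^ s * ((2:ℝ) ^ ((p:ℝ) - s)) ^ n := by
      rw [Real.mul_rpow (by positivity) (norm_nonneg y)]
      have e1 : (((1/2 : ℝ) ^ n) ^ s) = ((2:ℝ) ^ (- s)) ^ n := by
        rw [← Real.rpow_natCast, ← Real.rpow_natCast, ← Real.rpow_mul (by norm_num),
          ← Real.rpow_mul (by norm_num), one_div, Real.inv_rpow (by norm_num),
          ← Real.rpow_neg (by norm_num)]
        congr 1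
        ring
      have e2 : ((2:ℝ) ^ ((p:ℝ) - s)) = 2 ^ p * (2:ℝ) ^ (-s) := by
        rw [sub_eq_add_neg, Real.rpow_add (by norm_num), Real.rpow_natCast]
      rw [e1, e2, mul_pow, ← pow_mul, ← pow_mul, mul_comm n p]
      ring
    rw [h3]
    calc ((2:ℝ) ^ n) ^ p * (((1/2 : ℝ) ^ n) ^ p * ‖q y‖)
        ≤ ((2:ℝ) ^ n) ^ p * (C * ((1/2 : ℝ) ^ n * ‖y‖) ^ s) :=
          mul_le_mul_of_nonneg_left h2 (by positivity)
      _ = C * (((2:ℝ) ^ n) ^ p * ((1/2 : ℝ) ^ n * ‖y‖) ^ s) := by ring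
      _ = _ := by rw [h4]; ring
  have h2 : Tendsto (fun n : ℕ => C * ‖y‖ ^ s * ((2:ℝ) ^ ((p:ℝ) - s)) ^ n) atTop (𝓝 0) := by
    have h5 : (2:ℝ) ^ ((p:ℝ) - s) < 1 :=
      Real.rpow_lt_one_of_one_lt_of_neg (by norm_num) (by linarith)
    have := (tendsto_pow_atTop_nhds_zero_of_lt_one
      (Real.rpow_nonneg (by norm_num : (0:ℝ) ≤ 2) _) h5).const_mul (C * ‖y‖ ^ s)
    simpa using this
  exact norm_le_zero_iff.1 (ge_of_tendsto h2 (eventually_atTop.2 ⟨k, h1⟩))

/-- a polynomial of degree two which is `O(|y| ^ s)`, `s > 2`, vanishes -/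
theorem poly_zero {α : F} {Λ : E →L[ℝ] F} {B : E →L[ℝ] E →L[ℝ] F} {C r s : ℝ} (hs : 2 < s)
    (hr : 0 < r) (h : ∀ y, ‖y‖ ≤ r → ‖α + Λ y + B y y‖ ≤ C * ‖y‖ ^ s) (y : E) :
    α + Λ y + B y y = 0 := by
  have hα : α = 0 := by
    have := h 0 (by simp [hr.le])
    rw [norm_zero, Real.zero_rpow (by linarith), mul_zero] at this
    simpa using norm_le_zero_iff.1 this
  subst hα
  simp only [zero_add] at h ⊢
  have h' : ∀ y, ‖y‖ ≤ r → ‖- Λ y + B y y‖ ≤ C * ‖y‖ ^ s := by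
    intro y hy
    have := h (-y) (by rwa [norm_neg])
    simpa using this
  have hB : ∀ y, B y y = 0 := by
    refine hom_zero (q := fun y => B y y) 2 (fun n y => ?_) (C := C) (r := r) (s := s)
      (by exact_mod_cast hs) hr fun y hy => ?_
    · simp only [map_smul, smul_apply, smul_smul]
      rw [pow_two]
    · have e : B y y = (1/2 : ℝ) • ((Λ y + B y y) + (- Λ y + B y y)) := by module
      calc ‖B y y‖ = (1/2) * ‖(Λ y + B y y) + (- Λ y + B y y)‖ := by
            conv_lhs => rw [e]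
            rw [norm_smul]; norm_num
        _ ≤ (1/2) * (C * ‖y‖ ^ s + C * ‖y‖ ^ s) :=
            mul_le_mul_of_nonneg_left ((norm_add_le _ _).trans (add_le_add (h y hy) (h' y hy)))
              (by norm_num)
        _ = C * ‖y‖ ^ s := by ring
  have hΛ : ∀ y, Λ y = 0 := by
    refine hom_zero (q := fun y => Λ y) 1 (fun n y => ?_) (C := C) (r := r) (s := s)
      (by push_cast; linarith) hr fun y hy => ?_
    · simp only [map_smul, pow_one]
    · have := h y hy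
      rwa [hB y, add_zero] at this
  rw [hB y, hΛ y, add_zero]

end comp

section iter

variable {F : Type u} [NormedAddCommGroup F] [NormedSpace ℝ F] {X : Type*}

/-- product of the contractions along the orbit -/
noncomputable def Dn (S : X → X) (D : X → E →L[ℝ] E) (v : X) : ℕ → E →L[ℝ] E
  | 0 => ContinuousLinearMap.id ℝ E
  | n + 1 => (D (S^[n] v)).comp (Dn S D v n)

/-- product of the pull backs along the orbit -/
noncomputable def An (S : X → X) (A : X → F →L[ℝ] F) (v : X) : ℕ → F →L[ℝ] F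
  | 0 => ContinuousLinearMap.id ℝ F
  | n + 1 => (An S A v n).comp (A (S^[n] v))

theorem norm_Dn {S : X → X} {D : X → E →L[ℝ] E} {lam : ℝ} (hD : ∀ v, ‖D v‖ ≤ lam) (v : X)
    (n : ℕ) : ‖Dn S D v n‖ ≤ lam ^ n := by
  have h0 : 0 ≤ lam := (norm_nonneg _).trans (hD v)
  induction n with
  | zero => simpa [Dn] using ContinuousLinearMap.norm_id_le
  | succ n ih =>
    rw [Dn, pow_succ, mul_comm]
    exact (ContinuousLinearMap.opNorm_comp_le _ _).trans
      (mul_le_mul (hD _) ih (norm_nonneg _) h0)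

theorem norm_An {S : X → X} {A : X → F →L[ℝ] F} {mu : ℝ} (hA : ∀ v, ‖A v‖ ≤ mu) (v : X)
    (n : ℕ) : ‖An S A v n‖ ≤ mu ^ n := by
  have h0 : 0 ≤ mu := (norm_nonneg _).trans (hA v)
  induction n with
  | zero => simpa [An] using ContinuousLinearMap.norm_id_le
  | succ n ih =>
    rw [An, pow_succ]
    exact (ContinuousLinearMap.opNorm_comp_le _ _).trans
      (mul_le_mul ih (hA _) (norm_nonneg _) (pow_nonneg h0 n))

theorem Dn_mem {S : X → X} {D : X → E →L[ℝ] E} {lam R : ℝ} (hD : ∀ v, ‖D v‖ ≤ lam)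
    (hlam : lam ≤ 1) (v : X) (n : ℕ) {y : E} (hy : y ∈ ball (0:E) R) :
    Dn S D v n y ∈ ball (0:E) R := by
  have h0 : 0 ≤ lam := (norm_nonneg _).trans (hD v)
  rw [mem_ball_zero_iff] at hy ⊢
  calc ‖Dn S D v n y‖ ≤ ‖Dn S D v n‖ * ‖y‖ := (Dn S D v n).le_opNorm y
    _ ≤ lam ^ n * ‖y‖ := mul_le_mul_of_nonneg_right (norm_Dn hD v n) (norm_nonneg _)
    _ ≤ 1 * ‖y‖ := mul_le_mul_of_nonneg_right (pow_le_one₀ h0 hlam) (norm_nonneg _)
    _ < R := by rwa [one_mul]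

/-- the iterated recursion -/
theorem iter_eq {S : X → X} {D : X → E →L[ℝ] E} {A : X → F →L[ℝ] F} {r e : X → E → F}
    {lam R : ℝ} (hD : ∀ v, ‖D v‖ ≤ lam) (hlam : lam ≤ 1)
    (h : ∀ v, ∀ y ∈ ball (0:E) R, r v y = A v (r (S v) (D v y)) + e v y) (v : X) (n : ℕ)
    {y : E} (hy : y ∈ ball (0:E) R) :
    r v y = (∑ j ∈ Finset.range n, An S A v j (e (S^[j] v) (Dn S D v j y)))
      + An S A v n (r (S^[n] v) (Dn S D v n y)) := by
  induction n with
  | zero => simp [An, Dn]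
  | succ n ih =>
    rw [ih, Finset.sum_range_succ, add_assoc]
    congr 1
    rw [h (S^[n] v) _ (Dn_mem hD hlam v n hy), map_add, add_comm]
    simp only [An, Dn, ContinuousLinearMap.comp_apply, Function.iterate_succ_apply']

/-- smoothness of the solution of the recursion when the error is of third order at zero -/
theorem smooth_iter [FiniteDimensional ℝ E] [FiniteDimensional ℝ F] {S : X → X}
    {D : X → E →L[ℝ] E} {A : X → F →L[ℝ] F} {r g : X → E → F} {lam mu R s C : ℝ} {M : ℕ → ℝ}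
    (hR : 0 < R) (hD : ∀ v, ‖D v‖ ≤ lam) (hlam : lam ≤ 1) (hA : ∀ v, ‖A v‖ ≤ mu)
    (hs : 2 < s) (hs3 : s ≤ 3) (hq : mu * lam ^ s < 1)
    (hg : ∀ v, ContDiffOn ℝ ∞ (g v) (ball (0:E) R))
    (hM : ∀ v k, ∀ y ∈ ball (0:E) R, ‖iteratedFDeriv ℝ k (g v) y‖ ≤ M k)
    (h : ∀ v, ∀ y ∈ ball (0:E) R, r v y = A v (r (S v) (D v y)) + E3 (g v) y)
    (hr : ∀ v, ∀ y ∈ ball (0:E) R, ‖r v y‖ ≤ C * ‖y‖ ^ s) (v : X) :
    ContDiffOn ℝ ∞ (r v) (ball (0:E) R) ∧ ∀ k, ∀ y ∈ ball (0:E) R,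
      ‖iteratedFDeriv ℝ k (r v) y‖ ≤ (M 3 + M k) * (1 + R) ^ 3 / (1 - mu * lam ^ s) := by
  have hlam0 : 0 ≤ lam := (norm_nonneg _).trans (hD v)
  have hmu0 : 0 ≤ mu := (norm_nonneg _).trans (hA v)
  have hM0 : ∀ k, 0 ≤ M k := fun k => bound_nonneg (hM v) hR k
  set θ := mu * lam ^ s with hθ
  have hθ0 : 0 ≤ θ := mul_nonneg hmu0 (Real.rpow_nonneg hlam0 s)
  have h3s : lam ^ (3:ℕ) ≤ lam ^ s := by
    rw [← Real.rpow_natCast]
    rcases hlam0.eq_or_lt with h0 | h0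
    · rw [← h0, Real.zero_rpow (by norm_num), Real.zero_rpow (by linarith)]
    · exact Real.rpow_le_rpow_of_exponent_ge h0 hlam (by push_cast; exact hs3)
  have h3 : mu * lam ^ 3 ≤ θ := mul_le_mul_of_nonneg_left h3s hmu0
  have h3' : 0 ≤ mu * lam ^ 3 := by positivity
  let t : ℕ → E → F := fun j y => An S A v j (E3 (g (S^[j] v)) (Dn S D v j y))
  have ht : ∀ j, ContDiffOn ℝ ∞ (t j) (ball (0:E) R) ∧ ∀ k, ∀ y ∈ ball (0:E) R,
      ‖iteratedFDeriv ℝ k (t j) y‖ ≤ (M 3 + M k) * (1 + R) ^ 3 * θ ^ j := by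
    intro j
    have h1 := comp_bound (E3_contDiffOn (hg (S^[j] v))) (Dn S D v j) (An S A v j)
      (norm_Dn hD v j) (pow_le_one₀ hlam0 hlam) (norm_An hA v j)
    refine ⟨h1.1, fun k y hy => (h1.2 k y hy).trans ?_⟩
    have hmem := Dn_mem (S := S) hD hlam v j hy
    have h2 := bounds_E3 hR (hg (S^[j] v)) (hM (S^[j] v)) k hmem
    have hyR : ‖y‖ < R := by simpa using hy
    have hn : ‖Dn S D v j y‖ ≤ lam ^ j * R := by
      calc ‖Dn S D v j y‖ ≤ ‖Dn S D v j‖ * ‖y‖ := (Dn S D v j).le_opNorm y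
        _ ≤ lam ^ j * R := mul_le_mul (norm_Dn hD v j) hyR.le (norm_nonneg _)
            (pow_nonneg hlam0 j)
    have h4 : (if k < 3 then M 3 else M k) ≤ M 3 + M k := by
      split_ifs
      · linarith [hM0 k]
      · linarith [hM0 3]
    have h5 : ‖Dn S D v j y‖ ^ (3 - k) ≤ (lam ^ j) ^ (3 - k) * (1 + R) ^ 3 := by
      calc ‖Dn S D v j y‖ ^ (3 - k) ≤ (lam ^ j * R) ^ (3 - k) :=
            pow_le_pow_left₀ (norm_nonneg _) hn _
        _ = (lam ^ j) ^ (3 - k) * R ^ (3 - k) := mul_pow _ _ _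
        _ ≤ (lam ^ j) ^ (3 - k) * (1 + R) ^ 3 := by
            refine mul_le_mul_of_nonneg_left ?_ (by positivity)
            calc R ^ (3 - k) ≤ (1 + R) ^ (3 - k) := pow_le_pow_left₀ hR.le (by linarith) _
              _ ≤ (1 + R) ^ 3 := pow_le_pow_right₀ (by linarith) (by omega)
    have h6 : (lam ^ j) ^ (3 - k) * (lam ^ j) ^ k ≤ (lam ^ j) ^ 3 := by
      rw [← pow_add]
      exact pow_le_pow_of_le_one (pow_nonneg hlam0 j) (pow_le_one₀ hlam0 hlam) (by omega)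
    calc mu ^ j * (‖iteratedFDeriv ℝ k (E3 (g (S^[j] v))) (Dn S D v j y)‖ * (lam ^ j) ^ k)
        ≤ mu ^ j * (((M 3 + M k) * ((lam ^ j) ^ (3 - k) * (1 + R) ^ 3)) * (lam ^ j) ^ k) := by
          refine mul_le_mul_of_nonneg_left ?_ (pow_nonneg hmu0 j)
          refine mul_le_mul_of_nonneg_right ?_ (by positivity)
          refine h2.trans (mul_le_mul h4 h5 (by positivity) ?_)
          linarith [hM0 3, hM0 k]
      _ = (M 3 + M k) * (1 + R) ^ 3 * (mu ^ j * ((lam ^ j) ^ (3 - k) * (lam ^ j) ^ k)) := by ring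
      _ ≤ (M 3 + M k) * (1 + R) ^ 3 * (mu ^ j * (lam ^ j) ^ 3) := by
          refine mul_le_mul_of_nonneg_left (mul_le_mul_of_nonneg_left h6 (pow_nonneg hmu0 j)) ?_
          have := hM0 3
          have := hM0 k
          positivity
      _ = (M 3 + M k) * (1 + R) ^ 3 * (mu * lam ^ 3) ^ j := by ring
      _ ≤ (M 3 + M k) * (1 + R) ^ 3 * θ ^ j := by
          refine mul_le_mul_of_nonneg_left (pow_le_pow_left₀ h3' h3 j) ?_
          have := hM0 3
          have := hM0 k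
          positivity
  have hsum : ∀ n, ContDiffOn ℝ ∞ (fun y => ∑ j ∈ Finset.range n, t j y) (ball (0:E) R) :=
    fun n => ContDiffOn.sum fun j _ => (ht j).1
  have hgeo : ∀ n : ℕ, ∑ j ∈ Finset.range n, θ ^ j ≤ 1 / (1 - θ) := by
    intro n
    rw [geom_sum_eq (by linarith : θ ≠ 1), ← neg_div_neg_eq]
    refine div_le_div₀ (by norm_num) ?_ (by linarith) (by linarith)
    have := pow_nonneg hθ0 n
    linarith
  have hb : ∀ n k, ∀ y ∈ ball (0:E) R,
      ‖iteratedFDeriv ℝ k (fun y => ∑ j ∈ Finset.range n, t j y) y‖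
        ≤ (M 3 + M k) * (1 + R) ^ 3 / (1 - θ) := by
    intro n k y hy
    have h1 : ∀ n : ℕ, ‖iteratedFDeriv ℝ k (fun y => ∑ j ∈ Finset.range n, t j y) y‖
        ≤ ∑ j ∈ Finset.range n, ‖iteratedFDeriv ℝ k (t j) y‖ := by
      intro n
      induction n with
      | zero =>
        simp only [Finset.range_zero, Finset.sum_empty]
        have : iteratedFDeriv ℝ k (fun _ : E => (0 : F)) y = 0 := by
          rcases k with _ | k
          · ext m; simp
          · rw [iteratedFDeriv_succ_const]; rfl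
        rw [this, norm_zero]
      | succ n ih =>
        have e : (fun y => ∑ j ∈ Finset.range (n + 1), t j y)
            = (fun y => ∑ j ∈ Finset.range n, t j y) + t n := by
          funext z
          simp [Finset.sum_range_succ]
        rw [e, iteratedFDeriv_add_apply, Finset.sum_range_succ]
        · exact (norm_add_le _ _).trans (add_le_add ih le_rfl)
        · exact ((hsum n).contDiffAt (isOpen_ball.mem_nhds hy)).of_le (by exact ENat.LEInfty.out)
        · exact ((ht n).1.contDiffAt (isOpen_ball.mem_nhds hy)).of_le (by exact ENat.LEInfty.out)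
    have h0 : 0 ≤ (M 3 + M k) * (1 + R) ^ 3 := by
      have := hM0 3
      have := hM0 k
      positivity
    calc ‖iteratedFDeriv ℝ k (fun y => ∑ j ∈ Finset.range n, t j y) y‖
        ≤ ∑ j ∈ Finset.range n, ‖iteratedFDeriv ℝ k (t j) y‖ := h1 n
      _ ≤ ∑ j ∈ Finset.range n, (M 3 + M k) * (1 + R) ^ 3 * θ ^ j :=
          Finset.sum_le_sum fun j _ => (ht j).2 k y hy
      _ = (M 3 + M k) * (1 + R) ^ 3 * ∑ j ∈ Finset.range n, θ ^ j := by rw [Finset.mul_sum]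
      _ ≤ (M 3 + M k) * (1 + R) ^ 3 * (1 / (1 - θ)) := mul_le_mul_of_nonneg_left (hgeo n) h0
      _ = _ := by ring
  have hlim : ∀ y ∈ ball (0:E) R,
      Tendsto (fun n => ∑ j ∈ Finset.range n, t j y) atTop (𝓝 (r v y)) := by
    intro y hy
    have h1 : ∀ n, ‖r v y - ∑ j ∈ Finset.range n, t j y‖ ≤ C * ‖y‖ ^ s * θ ^ n := by
      intro n
      have h2 := iter_eq (e := fun v => E3 (g v)) hD hlam h v n hy
      have h3 : r v y - ∑ j ∈ Finset.range n, t j y
          = An S A v n (r (S^[n] v) (Dn S D v n y)) := by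
        rw [h2]
        simp only [t]
        abel
      have hmem := Dn_mem (S := S) hD hlam v n hy
      have hCy : 0 ≤ C ∨ y = 0 := by
        by_contra hcon
        push Not at hcon
        have h5 := (norm_nonneg _).trans (hr v y hy)
        have : 0 < ‖y‖ ^ s := Real.rpow_pos_of_pos (norm_pos_iff.2 hcon.2) s
        nlinarith [hcon.1]
      rw [h3]
      rcases hCy with hCy | hy0
      · calc ‖An S A v n (r (S^[n] v) (Dn S D v n y))‖
            ≤ ‖An S A v n‖ * ‖r (S^[n] v) (Dn S D v n y)‖ := (An S A v n).le_opNorm _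
          _ ≤ mu ^ n * (C * ‖Dn S D v n y‖ ^ s) :=
              mul_le_mul (norm_An hA v n) (hr _ _ hmem) (norm_nonneg _) (pow_nonneg hmu0 n)
          _ ≤ mu ^ n * (C * (lam ^ n * ‖y‖) ^ s) := by
              have h6 : ‖Dn S D v n y‖ ≤ lam ^ n * ‖y‖ := by
                calc ‖Dn S D v n y‖ ≤ ‖Dn S D v n‖ * ‖y‖ := (Dn S D v n).le_opNorm y
                  _ ≤ lam ^ n * ‖y‖ := mul_le_mul_of_nonneg_right (norm_Dn hD v n) (norm_nonneg _)
              have h7 : ‖Dn S D v n y‖ ^ s ≤ (lam ^ n * ‖y‖) ^ s :=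
                Real.rpow_le_rpow (norm_nonneg _) h6 (by linarith)
              exact mul_le_mul_of_nonneg_left (mul_le_mul_of_nonneg_left h7 hCy)
                (pow_nonneg hmu0 n)
          _ = C * ‖y‖ ^ s * θ ^ n := by
              rw [Real.mul_rpow (pow_nonneg hlam0 n) (norm_nonneg y), hθ, mul_pow,
                ← Real.rpow_natCast (lam ^ s), ← Real.rpow_natCast lam, ← Real.rpow_mul hlam0,
                ← Real.rpow_mul hlam0, mul_comm (n:ℝ) s]
              ring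
      · subst hy0
        have h8 := hr (S^[n] v) 0 (mem_ball_self hR)
        rw [norm_zero, Real.zero_rpow (by linarith), mul_zero] at h8
        rw [map_zero, norm_le_zero_iff.1 h8, map_zero]
        simp only [norm_zero]
        rw [Real.zero_rpow (by linarith)]
        simp
    have h2 : Tendsto (fun n : ℕ => C * ‖y‖ ^ s * θ ^ n) atTop (𝓝 0) := by
      have := (tendsto_pow_atTop_nhds_zero_of_lt_one hθ0 hq).const_mul (C * ‖y‖ ^ s)
      simpa using this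
    have h3 := squeeze_zero_norm h1 h2
    have h4 := (tendsto_const_nhds (x := r v y)).sub h3
    simpa using h4
  have := Lim.lim_smooth isOpen_ball hsum hb hlim
  exact ⟨this.1, this.2.1⟩

end iter

section final

variable {F : Type u} [NormedAddCommGroup F] [NormedSpace ℝ F]

theorem norm_it_clm {G : Type*} [NormedAddCommGroup G] [NormedSpace ℝ G] (L : E →L[ℝ] G)
    (k : ℕ) (y : E) : ‖iteratedFDeriv ℝ k L y‖ ≤ ‖L‖ * (1 + ‖y‖) := by
  match k with
  | 0 =>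
    rw [norm_iteratedFDeriv_zero]
    have := L.le_opNorm y
    nlinarith [norm_nonneg L]
  | 1 =>
    rw [norm_iteratedFDeriv_one, L.fderiv]
    nlinarith [norm_nonneg L, norm_nonneg y, mul_nonneg (norm_nonneg L) (norm_nonneg y)]
  | (k + 2) =>
    have h1 : fderiv ℝ (⇑L) = fun _ => L := by funext z; exact L.fderiv
    rw [← norm_iteratedFDeriv_fderiv, h1, iteratedFDeriv_succ_const]
    simp only [Pi.zero_apply, norm_zero]
    positivity

theorem norm_it_const {G : Type*} [NormedAddCommGroup G] [NormedSpace ℝ G] (c : G)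
    (k : ℕ) (y : E) : ‖iteratedFDeriv ℝ k (fun _ : E => c) y‖ ≤ ‖c‖ := by
  match k with
  | 0 => rw [norm_iteratedFDeriv_zero]
  | (k + 1) =>
    rw [iteratedFDeriv_succ_const]
    simp

/-- derivatives of a polynomial of degree two -/
theorem norm_it_poly {a : F} {L : E →L[ℝ] F} {Q : E →L[ℝ] E →L[ℝ] F} {C R : ℝ}
    (ha : ‖a‖ ≤ C) (hL : ‖L‖ ≤ C) (hQ : ‖Q‖ ≤ C) (hR : 0 < R) (k : ℕ) {y : E} (hy : ‖y‖ < R) :
    ‖iteratedFDeriv ℝ k (fun y => a + L y + Q y y) y‖ ≤ 3 * C * 2 ^ k * (1 + R) ^ 2 := by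
  have hC : 0 ≤ C := (norm_nonneg _).trans ha
  have h1 : ContDiff ℝ ∞ (fun _ : E => a) := contDiff_const
  have h2 : ContDiff ℝ ∞ (fun y : E => L y) := L.contDiff
  have h3 : ContDiff ℝ ∞ (fun y : E => Q y y) :=
    Q.isBoundedBilinearMap.contDiff.comp (contDiff_id.prodMk contDiff_id)
  have h12 : ContDiff ℝ ∞ ((fun _ : E => a) + (fun y : E => L y)) := h1.add h2
  have e : (fun y => a + L y + Q y y) = ((fun _ => a) + (fun y => L y)) + (fun y => Q y y) := rfl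
  have hk : ((k : ℕ) : ℕ∞ω) ≤ ∞ := by exact ENat.LEInfty.out
  rw [e, iteratedFDeriv_add_apply (h12.contDiffAt.of_le hk) (h3.contDiffAt.of_le hk),
    iteratedFDeriv_add_apply (h1.contDiffAt.of_le hk) (h2.contDiffAt.of_le hk)]
  have hk2 : (1:ℝ) ≤ 2 ^ k := one_le_pow₀ (by norm_num)
  have hR1 : 1 ≤ (1 + R) ^ 2 := one_le_pow₀ (by linarith)
  have b1 : ‖iteratedFDeriv ℝ k (fun _ : E => a) y‖ ≤ C * 2 ^ k * (1 + R) ^ 2 := by
    refine (norm_it_const a k y).trans (ha.trans ?_)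
    rw [mul_assoc]
    exact le_mul_of_one_le_right hC (one_le_mul_of_one_le_of_one_le hk2 hR1)
  have b2 : ‖iteratedFDeriv ℝ k (fun y => L y) y‖ ≤ C * 2 ^ k * (1 + R) ^ 2 := by
    refine (norm_it_clm L k y).trans ?_
    calc ‖L‖ * (1 + ‖y‖) ≤ C * (1 + R) :=
          mul_le_mul hL (by linarith) (by positivity) hC
      _ ≤ C * (2 ^ k * (1 + R) ^ 2) := by
          refine mul_le_mul_of_nonneg_left ?_ hC
          nlinarith [mul_le_mul hk2 (le_refl ((1 + R) ^ 2)) (by positivity) (by positivity)]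
      _ = _ := by ring
  have b3 : ‖iteratedFDeriv ℝ k (fun y => Q y y) y‖ ≤ C * 2 ^ k * (1 + R) ^ 2 := by
    refine (Q.norm_iteratedFDeriv_le_of_bilinear (f := fun y => y) (g := fun y => y)
      contDiff_id contDiff_id y hk).trans ?_
    have hid : ∀ i, ‖iteratedFDeriv ℝ i (fun y : E => y) y‖ ≤ 1 + R := by
      intro i
      have := norm_it_clm (ContinuousLinearMap.id ℝ E) i y
      refine this.trans ?_
      calc ‖ContinuousLinearMap.id ℝ E‖ * (1 + ‖y‖) ≤ 1 * (1 + R) :=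
            mul_le_mul ContinuousLinearMap.norm_id_le (by linarith) (by positivity) (by norm_num)
        _ = _ := by ring
    have hs : ∑ i ∈ Finset.range (k + 1), ((k.choose i : ℕ) : ℝ) *
        ‖iteratedFDeriv ℝ i (fun y : E => y) y‖ * ‖iteratedFDeriv ℝ (k - i) (fun y : E => y) y‖
        ≤ ∑ i ∈ Finset.range (k + 1), ((k.choose i : ℕ) : ℝ) * (1 + R) ^ 2 := by
      refine Finset.sum_le_sum fun i _ => ?_
      rw [mul_assoc, pow_two]
      refine mul_le_mul_of_nonneg_left ?_ (Nat.cast_nonneg _)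
      exact mul_le_mul (hid _) (hid _) (norm_nonneg _) (by linarith)
    rw [← Finset.sum_mul, ← Nat.cast_sum, Nat.sum_range_choose] at hs
    push_cast at hs
    calc ‖Q‖ * _ ≤ C * (2 ^ k * (1 + R) ^ 2) :=
          mul_le_mul hQ hs (Finset.sum_nonneg fun i _ => by positivity) hC
      _ = _ := by ring
  calc ‖iteratedFDeriv ℝ k (fun _ : E => a) y + iteratedFDeriv ℝ k (fun y => L y) y
        + iteratedFDeriv ℝ k (fun y => Q y y) y‖
      ≤ ‖iteratedFDeriv ℝ k (fun _ : E => a) y‖ + ‖iteratedFDeriv ℝ k (fun y => L y) y‖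
        + ‖iteratedFDeriv ℝ k (fun y => Q y y) y‖ :=
        (norm_add_le _ _).trans (add_le_add (norm_add_le _ _) le_rfl)
    _ ≤ _ := by linarith

/-- **the end of step 7, abstract**: uniform two-jets with error `C |y| ^ s`, `2 < s <= 3`, and a
contracting linear recursion with smooth bounded inhomogeneity, `mu * lam ^ s < 1`, give
smoothness with uniform bounds. -/
theorem end7 [FiniteDimensional ℝ E] [FiniteDimensional ℝ F] {R lam mu s C : ℝ} (M : ℕ → ℝ)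
    (hR : 0 < R) (hlam : lam ≤ 1) (hs : 2 < s) (hs3 : s ≤ 3)
    (hq : mu * lam ^ s < 1) :
    ∃ K : ℕ → ℝ, ∀ (X : Type*) (S : X → X) (f : X → E → F) (D : X → E →L[ℝ] E)
      (A : X → F →L[ℝ] F) (Err : X → E → F),
      (∀ v, ‖D v‖ ≤ lam) → (∀ v, ‖A v‖ ≤ mu) →
      (∀ v, ContDiffOn ℝ ∞ (Err v) (ball (0:E) R)) →
      (∀ v k, ∀ y ∈ ball (0:E) R, ‖iteratedFDeriv ℝ k (Err v) y‖ ≤ M k) →
      (∀ v, ∀ y ∈ ball (0:E) R, f v y = A v (f (S v) (D v y)) + Err v y) →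
      (∀ v, ∃ (a : F) (L : E →L[ℝ] F) (Q : E →L[ℝ] E →L[ℝ] F), ‖a‖ ≤ C ∧ ‖L‖ ≤ C ∧ ‖Q‖ ≤ C ∧
        ∀ y ∈ ball (0:E) R, ‖f v y - (a + L y + Q y y)‖ ≤ C * ‖y‖ ^ s) →
      ∀ v, ContDiffOn ℝ ∞ (f v) (ball (0:E) R) ∧
        ∀ k, ∀ y ∈ ball (0:E) R, ‖iteratedFDeriv ℝ k (f v) y‖ ≤ K k := by
  refine ⟨fun k => (M 3 + M k) * (1 + R) ^ 3 / (1 - mu * lam ^ s) +
    3 * C * 2 ^ k * (1 + R) ^ 2, ?_⟩
  intro X S f D A Err hD hA hErr hM hrec hjet v
  choose a L Q ha hL hQ hf using hjet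
  have hlam0 : 0 ≤ lam := (norm_nonneg _).trans (hD v)
  have hmu0 : 0 ≤ mu := (norm_nonneg _).trans (hA v)
  have hC : 0 ≤ C := (norm_nonneg _).trans (ha v)
  have hM3 : 0 ≤ M 3 := bound_nonneg (hM v) hR 3
  let q : X → E → F := fun v y => a v + L v y + Q v y y
  let r : X → E → F := fun v y => f v y - q v y
  -- the recursion for the remainders
  have hrr : ∀ v, ∀ y ∈ ball (0:E) R, r v y = A v (r (S v) (D v y)) + E3 (Err v) y := by
    intro v
    -- the polynomial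
    set B := fderiv ℝ (fderiv ℝ (Err v)) 0 with hB
    let α : F := a v - A v (a (S v)) - Err v 0
    let Λ : E →L[ℝ] F := L v - (A v).comp ((L (S v)).comp (D v)) - fderiv ℝ (Err v) 0
    let B' : E →L[ℝ] E →L[ℝ] F :=
      Q v - (ContinuousLinearMap.compL ℝ E F F (A v)).comp
        ((Q (S v)).bilinearComp (D v) (D v)) - (1/2 : ℝ) • B
    have hp : ∀ y, α + Λ y + B' y y = q v y - A v (q (S v) (D v y)) - T2 (Err v) y := by
      intro y
      simp only [α, Λ, B', q, T2, sub_apply, smul_apply, ContinuousLinearMap.comp_apply,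
        ContinuousLinearMap.compL_apply, ContinuousLinearMap.bilinearComp_apply, map_add, ← hB]
      abel
    have hp' : ∀ y ∈ ball (0:E) R, α + Λ y + B' y y
        = - (r v y) + A v (r (S v) (D v y)) + E3 (Err v) y := by
      intro y hy
      rw [hp]
      simp only [r, E3]
      rw [hrec v y hy, map_sub]
      abel
    have hbd : ∀ y, ‖y‖ ≤ R / 2 → ‖α + Λ y + B' y y‖
        ≤ (C + mu * C + M 3 * R ^ (3 - s)) * ‖y‖ ^ s := by
      intro y hy
      have hyR : ‖y‖ < R := by linarith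
      have hyb : y ∈ ball (0:E) R := by simpa using hyR
      have hDy : ‖D v y‖ ≤ ‖y‖ := by
        calc ‖D v y‖ ≤ ‖D v‖ * ‖y‖ := (D v).le_opNorm y
          _ ≤ 1 * ‖y‖ := mul_le_mul_of_nonneg_right ((hD v).trans hlam) (norm_nonneg _)
          _ = ‖y‖ := one_mul _
      have hDb : D v y ∈ ball (0:E) R := by simpa using hDy.trans_lt hyR
      have e1 : ‖r v y‖ ≤ C * ‖y‖ ^ s := hf v y hyb
      have e2 : ‖A v (r (S v) (D v y))‖ ≤ mu * (C * ‖y‖ ^ s) := by
        refine ((A v).le_opNorm _).trans ?_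
        refine mul_le_mul (hA v) ((hf (S v) _ hDb).trans ?_) (norm_nonneg _) hmu0
        exact mul_le_mul_of_nonneg_left
          (Real.rpow_le_rpow (norm_nonneg _) hDy (by linarith)) hC
      have e3 : ‖E3 (Err v) y‖ ≤ M 3 * (R ^ (3 - s) * ‖y‖ ^ s) := by
        refine (norm_E3 hR (hErr v) (hM v) hyb).trans ?_
        refine mul_le_mul_of_nonneg_left ?_ hM3
        have : ‖y‖ ^ 3 = ‖y‖ ^ (3 - s) * ‖y‖ ^ s := by
          rw [← Real.rpow_natCast, ← Real.rpow_add_of_nonneg (norm_nonneg _) (by linarith)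
            (by linarith)]
          norm_num
        rw [this]
        exact mul_le_mul_of_nonneg_right
          (Real.rpow_le_rpow (norm_nonneg _) hyR.le (by linarith))
          (Real.rpow_nonneg (norm_nonneg _) _)
      rw [hp' y hyb]
      calc ‖-(r v y) + A v (r (S v) (D v y)) + E3 (Err v) y‖
          ≤ ‖r v y‖ + ‖A v (r (S v) (D v y))‖ + ‖E3 (Err v) y‖ := by
            refine (norm_add_le _ _).trans (add_le_add ((norm_add_le _ _).trans ?_) le_rfl)
            rw [norm_neg]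
        _ ≤ C * ‖y‖ ^ s + mu * (C * ‖y‖ ^ s) + M 3 * (R ^ (3 - s) * ‖y‖ ^ s) := by
            linarith
        _ = _ := by ring
    intro y hy
    have h0 := poly_zero hs (by linarith : 0 < R / 2) hbd y
    rw [hp' y hy] at h0
    have h1 : A v (r (S v) (D v y)) + E3 (Err v) y
        = (-(r v y) + A v (r (S v) (D v y)) + E3 (Err v) y) + r v y := by abel
    rw [h1, h0, zero_add]
  have hrb : ∀ v, ∀ y ∈ ball (0:E) R, ‖r v y‖ ≤ C * ‖y‖ ^ s := fun v y hy => hf v y hy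
  have key := smooth_iter hR hD hlam hA hs hs3 hq hErr hM hrr hrb v
  have hqs : ContDiff ℝ ∞ (q v) := by
    refine (contDiff_const.add (L v).contDiff).add ?_
    exact (Q v).isBoundedBilinearMap.contDiff.comp (contDiff_id.prodMk contDiff_id)
  have hfe : f v = r v + q v := by
    funext y
    simp [r]
  constructor
  · rw [hfe]
    exact key.1.add hqs.contDiffOn
  · intro k y hy
    have hk : ((k : ℕ) : ℕ∞ω) ≤ ∞ := by exact ENat.LEInfty.out
    rw [hfe, iteratedFDeriv_add_apply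
      ((key.1.contDiffAt (isOpen_ball.mem_nhds hy)).of_le hk) (hqs.contDiffAt.of_le hk)]
    refine (norm_add_le _ _).trans (add_le_add (key.2 k y hy) ?_)
    exact norm_it_poly (ha v) (hL v) (hQ v) hR k (by simpa using hy)

end final

end Vale.Agent.P207.H717.End7
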