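import Mathlib

/-!
P207, all dimensions: limits of smooth functions with uniformly bounded derivatives, along an
arbitrary filter.  Mathlib only.
-/

namespace Vale.Agent.P207.H717.Lim

open Filter Topology Metric
open scoped ContDiff

universe u

variable {E : Type u} [NormedAddCommGroup E] [NormedSpace ℝ E]

/-- if `fderiv f` is Lipschitz near `x` then `f` is close to its first order expansion -/
theorem taylor1 {F : Type u} [NormedAddCommGroup F] [NormedSpace ℝ F] {f : E → F} {U : Set E}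
    (hU : IsOpen U) (hf : ContDiffOn ℝ ∞ f U) {x y : E} {M : ℝ}
    (hxy : closedBall x ‖y - x‖ ⊆ U) (hM : ∀ z ∈ U, ‖iteratedFDeriv ℝ 2 f z‖ ≤ M) :
    ‖f y - f x - fderiv ℝ f x (y - x)‖ ≤ M * ‖y - x‖ ^ 2 := by
  set s := closedBall x ‖y - x‖ with hs
  have hsc : Convex ℝ s := convex_closedBall _ _
  have hxs : x ∈ s := mem_closedBall_self (norm_nonneg _)
  have hys : y ∈ s := by rw [hs, mem_closedBall, dist_eq_norm]
  have hd : ∀ z ∈ s, HasFDerivWithinAt f (fderiv ℝ f z) s z := fun z hz =>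
    ((hf.differentiableOn (by simp) z (hxy hz)).differentiableAt
      (hU.mem_nhds (hxy hz))).hasFDerivAt.hasFDerivWithinAt
  have hf' : ContDiffOn ℝ ∞ (fderiv ℝ f) U := hf.fderiv_of_isOpen hU (by simp)
  have hd2 : ∀ z ∈ s, HasFDerivWithinAt (fderiv ℝ f) (fderiv ℝ (fderiv ℝ f) z) s z := fun z hz =>
    ((hf'.differentiableOn (by simp) z (hxy hz)).differentiableAt
      (hU.mem_nhds (hxy hz))).hasFDerivAt.hasFDerivWithinAt
  have hb2 : ∀ z ∈ s, ‖fderiv ℝ (fderiv ℝ f) z‖ ≤ M := fun z hz => by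
    rw [← norm_iteratedFDeriv_one, norm_iteratedFDeriv_fderiv]
    exact hM z (hxy hz)
  have hM0 : 0 ≤ M := le_trans (norm_nonneg (fderiv ℝ (fderiv ℝ f) x)) (hb2 x hxs)
  have hb : ∀ z ∈ s, ‖fderiv ℝ f z - fderiv ℝ f x‖ ≤ M * ‖y - x‖ := fun z hz => by
    refine (hsc.norm_image_sub_le_of_norm_hasFDerivWithin_le hd2 hb2 hxs hz).trans ?_
    refine mul_le_mul_of_nonneg_left ?_ hM0
    rw [← dist_eq_norm]
    exact mem_closedBall.1 hz
  have := hsc.norm_image_sub_le_of_norm_hasFDerivWithin_le' hd hb hxs hys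
  rwa [mul_assoc, ← pow_two] at this

section

variable [FiniteDimensional ℝ E] {ι : Type*}

theorem bounded_lim {F : Type*} [NormedAddCommGroup F] [NormedSpace ℝ F]
    [FiniteDimensional ℝ F] (𝒰 : Ultrafilter ι) (a : ι → F) {K : ℝ} (h : ∀ i, ‖a i‖ ≤ K) :
    ∃ x, Tendsto a 𝒰 (𝓝 x) := by
  have : ProperSpace F := FiniteDimensional.proper_real F
  have h1 : ((𝒰.map a : Ultrafilter F) : Filter F) ≤ 𝓟 (closedBall (0:F) K) := by
    rw [le_principal_iff]
    have : a ⁻¹' (closedBall (0:F) K) = Set.univ := by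
      ext i
      simp [h i]
    show a ⁻¹' (closedBall (0:F) K) ∈ (𝒰 : Filter ι)
    rw [this]
    exact univ_mem
  obtain ⟨x, -, hx⟩ := (isCompact_closedBall (0:F) K).ultrafilter_le_nhds _ h1
  exact ⟨x, hx⟩

theorem lim_hasFDerivAt {F : Type u} [NormedAddCommGroup F] [NormedSpace ℝ F]
    [FiniteDimensional ℝ F] (𝒰 : Ultrafilter ι) {f : ι → E → F} {g : E → F} {U : Set E}
    {M : ℕ → ℝ} (hU : IsOpen U) (hf : ∀ i, ContDiffOn ℝ ∞ (f i) U)
    (hM : ∀ i k, ∀ x ∈ U, ‖iteratedFDeriv ℝ k (f i) x‖ ≤ M k)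
    (hlim : ∀ x ∈ U, Tendsto (fun i => f i x) 𝒰 (𝓝 (g x))) {x : E} (hx : x ∈ U) :
    HasFDerivAt g (fderiv ℝ g x) x ∧
      Tendsto (fun i => fderiv ℝ (f i) x) 𝒰 (𝓝 (fderiv ℝ g x)) := by
  obtain ⟨G, hG⟩ := bounded_lim 𝒰 (fun i => fderiv ℝ (f i) x) (K := M 1) (fun i => by
    rw [← norm_iteratedFDeriv_one]
    exact hM i 1 x hx)
  obtain ⟨ε, hε, hεU⟩ := Metric.isOpen_iff.1 hU x hx
  have key : ∀ y, ‖y - x‖ < ε → ‖g y - g x - G (y - x)‖ ≤ M 2 * ‖y - x‖ ^ 2 := by
    intro y hy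
    have hsub : closedBall x ‖y - x‖ ⊆ U := (closedBall_subset_ball hy).trans hεU
    have hyU : y ∈ U := hsub (by rw [mem_closedBall, dist_eq_norm])
    have h1 : Tendsto (fun i => ‖f i y - f i x - fderiv ℝ (f i) x (y - x)‖) 𝒰
        (𝓝 ‖g y - g x - G (y - x)‖) := by
      refine (((hlim y hyU).sub (hlim x hx)).sub ?_).norm
      exact ((ContinuousLinearMap.apply ℝ F (y - x)).continuous.tendsto G).comp hG
    exact le_of_tendsto h1 (Eventually.of_forall fun i =>
      taylor1 hU (hf i) hsub (fun z hz => hM i 2 z hz))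
  have hder : HasFDerivAt g G x := by
    refine HasFDerivAt.of_isLittleO ?_
    rw [Asymptotics.isLittleO_iff]
    intro c hc
    have hM2 : 0 ≤ M 2 := by
      obtain ⟨i⟩ := (inferInstance : NeBot (𝒰 : Filter ι)).nonempty
      exact (norm_nonneg _).trans (hM i 2 x hx)
    have h1 : ∀ᶠ y in 𝓝 x, ‖y - x‖ < min ε (c / (M 2 + 1)) := by
      have : Tendsto (fun y => ‖y - x‖) (𝓝 x) (𝓝 ‖x - x‖) :=
        (continuous_id.sub continuous_const).norm.tendsto x
      rw [sub_self, norm_zero] at this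
      exact this.eventually (eventually_lt_nhds (lt_min hε (by positivity)))
    filter_upwards [h1] with y hy
    refine (key y (hy.trans_le (min_le_left _ _))).trans ?_
    have h2 := (hy.trans_le (min_le_right _ _)).le
    rw [pow_two, ← mul_assoc]
    refine mul_le_mul_of_nonneg_right ?_ (norm_nonneg _)
    rw [le_div_iff₀ (by positivity)] at h2
    nlinarith [norm_nonneg (y - x)]
  rw [hder.fderiv]
  exact ⟨hder, hG⟩

theorem lim_aux (n : ℕ) : ∀ (F : Type u) [NormedAddCommGroup F] [NormedSpace ℝ F]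
    [FiniteDimensional ℝ F] (𝒰 : Ultrafilter ι) (f : ι → E → F) (g : E → F) (U : Set E)
    (M : ℕ → ℝ), IsOpen U → (∀ i, ContDiffOn ℝ ∞ (f i) U) →
    (∀ i k, ∀ x ∈ U, ‖iteratedFDeriv ℝ k (f i) x‖ ≤ M k) →
    (∀ x ∈ U, Tendsto (fun i => f i x) 𝒰 (𝓝 (g x))) →
    ContDiffOn ℝ n g U ∧
      ∀ x ∈ U, Tendsto (fun i => iteratedFDeriv ℝ n (f i) x) 𝒰 (𝓝 (iteratedFDeriv ℝ n g x)) := by
  induction n with
  | zero =>
    intro F _ _ _ 𝒰 f g U M hU hf hM hlim
    constructor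
    · rw [Nat.cast_zero, contDiffOn_zero]
      intro x hx
      exact (lim_hasFDerivAt 𝒰 hU hf hM hlim hx).1.continuousAt.continuousWithinAt
    · intro x hx
      simp only [iteratedFDeriv_zero_eq_comp, Function.comp_apply]
      exact ((continuousMultilinearCurryFin0 ℝ E F).symm.continuous.tendsto _).comp (hlim x hx)
  | succ n ih =>
    intro F _ _ _ 𝒰 f g U M hU hf hM hlim
    have h1 := ih (E →L[ℝ] F) 𝒰 (fun i => fderiv ℝ (f i)) (fderiv ℝ g) U (fun k => M (k + 1)) hU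
      (fun i => (hf i).fderiv_of_isOpen hU (by simp)) (fun i k x hx => by
        rw [norm_iteratedFDeriv_fderiv]
        exact hM i (k + 1) x hx)
      (fun x hx => (lim_hasFDerivAt 𝒰 hU hf hM hlim hx).2)
    constructor
    · rw [Nat.cast_add, Nat.cast_one, contDiffOn_succ_iff_fderiv_of_isOpen hU]
      refine ⟨fun x hx => (lim_hasFDerivAt 𝒰 hU hf hM
        hlim hx).1.differentiableAt.differentiableWithinAt, ?_, h1.1⟩
      intro h
      exact absurd h (by simp)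
    · intro x hx
      simp only [iteratedFDeriv_succ_eq_comp_right, Function.comp_apply]
      exact ((continuousMultilinearCurryRightEquiv' ℝ n E F).symm.continuous.tendsto _).comp
        (h1.2 x hx)

/-- **limits of smooth functions along a filter** -/
theorem lim_smooth {F : Type u} [NormedAddCommGroup F] [NormedSpace ℝ F]
    [FiniteDimensional ℝ F] {l : Filter ι} [NeBot l] {f : ι → E → F} {g : E → F} {U : Set E}
    {M : ℕ → ℝ} (hU : IsOpen U) (hf : ∀ i, ContDiffOn ℝ ∞ (f i) U)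
    (hM : ∀ i k, ∀ x ∈ U, ‖iteratedFDeriv ℝ k (f i) x‖ ≤ M k)
    (hlim : ∀ x ∈ U, Tendsto (fun i => f i x) l (𝓝 (g x))) :
    ContDiffOn ℝ ∞ g U ∧ (∀ k, ∀ x ∈ U, ‖iteratedFDeriv ℝ k g x‖ ≤ M k) ∧
      ∀ k, ∀ x ∈ U, Tendsto (fun i => iteratedFDeriv ℝ k (f i) x) l
        (𝓝 (iteratedFDeriv ℝ k g x)) := by
  have h0 : ∀ k, ∀ x ∈ U, Tendsto (fun i => iteratedFDeriv ℝ k (f i) x) l
        (𝓝 (iteratedFDeriv ℝ k g x)) := by
    intro k x hx
    rw [tendsto_iff_ultrafilter]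
    intro 𝒰 h𝒰
    exact (lim_aux k F 𝒰 f g U M hU hf hM fun x hx => (hlim x hx).mono_left h𝒰).2 x hx
  refine ⟨?_, ?_, h0⟩
  · rw [contDiffOn_infty]
    intro n
    exact (lim_aux n F (Ultrafilter.of l) f g U M hU hf hM
      fun x hx => (hlim x hx).mono_left (Ultrafilter.of_le l)).1
  · intro k x hx
    exact le_of_tendsto (h0 k x hx).norm (Eventually.of_forall fun i => hM i k x hx)

end

end Vale.Agent.P207.H717.Lim
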